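import Vale.Agent.P315.H608.Par2

/-!
# Truly subquadratic running times: closure properties

`SubQ T`: `T N ≤ C (N + 1) ^ (2 - δ)` for all `N`, with `δ > 0`.
-/

set_option autoImplicit false

namespace Vale.Agent.P315.H608

open Real Vale.Agent.P315.H809

/-- truly subquadratic -/
def SubQ (T : ℕ → ℝ) : Prop :=
  ∃ δ C : ℝ, 0 < δ ∧ δ ≤ 1 ∧ 0 ≤ C ∧ ∀ N : ℕ, T N ≤ C * ((N : ℝ) + 1) ^ (2 - δ)

theorem one_le_base (N : ℕ) : (1 : ℝ) ≤ (N : ℝ) + 1 := by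
  have : (0 : ℝ) ≤ N := Nat.cast_nonneg N
  linarith

theorem SubQ.mono {T T' : ℕ → ℝ} (h : SubQ T) (hle : ∀ N, T' N ≤ T N) : SubQ T' := by
  obtain ⟨δ, C, h1, h2, h3, h4⟩ := h
  exact ⟨δ, C, h1, h2, h3, fun N => (hle N).trans (h4 N)⟩

theorem SubQ.add {T T' : ℕ → ℝ} (h : SubQ T) (h' : SubQ T') : SubQ (fun N => T N + T' N) := by
  obtain ⟨δ, C, h1, h2, h3, h4⟩ := h
  obtain ⟨δ', C', h1', h2', h3', h4'⟩ := h'
  refine ⟨min δ δ', C + C', lt_min h1 h1', (min_le_left _ _).trans h2, add_nonneg h3 h3',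
    fun N => ?_⟩
  have e1 : ((N : ℝ) + 1) ^ (2 - δ) ≤ ((N : ℝ) + 1) ^ (2 - min δ δ') :=
    Real.rpow_le_rpow_of_exponent_le (one_le_base N) (by linarith [min_le_left δ δ'])
  have e2 : ((N : ℝ) + 1) ^ (2 - δ') ≤ ((N : ℝ) + 1) ^ (2 - min δ δ') :=
    Real.rpow_le_rpow_of_exponent_le (one_le_base N) (by linarith [min_le_right δ δ'])
  calc T N + T' N ≤ C * ((N : ℝ) + 1) ^ (2 - δ) + C' * ((N : ℝ) + 1) ^ (2 - δ') :=
        add_le_add (h4 N) (h4' N)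
    _ ≤ C * ((N : ℝ) + 1) ^ (2 - min δ δ') + C' * ((N : ℝ) + 1) ^ (2 - min δ δ') :=
        add_le_add (mul_le_mul_of_nonneg_left e1 h3) (mul_le_mul_of_nonneg_left e2 h3')
    _ = _ := by ring

theorem SubQ.const_mul {T : ℕ → ℝ} (h : SubQ T) {c : ℝ} (hc : 0 ≤ c) :
    SubQ (fun N => c * T N) := by
  obtain ⟨δ, C, h1, h2, h3, h4⟩ := h
  refine ⟨δ, c * C, h1, h2, mul_nonneg hc h3, fun N => ?_⟩
  rw [mul_assoc]
  exact mul_le_mul_of_nonneg_left (h4 N) hc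

/-- multiplication by a power of the logarithm -/
theorem SubQ.mul_log {T : ℕ → ℝ} (h : SubQ T) (a : ℕ) :
    SubQ (fun N => T N * ((Nat.log 2 (N + 2) : ℝ) + 1) ^ a) := by
  obtain ⟨δ, C, h1, h2, h3, h4⟩ := h
  obtain ⟨D, hD1, hD⟩ := polylog_le a (η := δ / 2) (by positivity)
  refine ⟨δ / 2, C * D, by positivity, by linarith, by positivity, fun N => ?_⟩
  have hN : (0 : ℝ) < (N : ℝ) + 1 := by positivity
  calc T N * ((Nat.log 2 (N + 2) : ℝ) + 1) ^ a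
      ≤ (C * ((N : ℝ) + 1) ^ (2 - δ)) * ((Nat.log 2 (N + 2) : ℝ) + 1) ^ a :=
        mul_le_mul_of_nonneg_right (h4 N) (by positivity)
    _ ≤ (C * ((N : ℝ) + 1) ^ (2 - δ)) * (D * ((N : ℝ) + 1) ^ (δ / 2)) :=
        mul_le_mul_of_nonneg_left (hD N) (by positivity)
    _ = C * D * (((N : ℝ) + 1) ^ (2 - δ) * ((N : ℝ) + 1) ^ (δ / 2)) := by ring
    _ = C * D * ((N : ℝ) + 1) ^ (2 - δ / 2) := by
        rw [← Real.rpow_add hN]; congr 2; ring

/-- finitely many inputs do not matter -/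
theorem SubQ.of_eventually {T T' : ℕ → ℝ} (h : SubQ T') (N₀ : ℕ)
    (hle : ∀ N, N₀ ≤ N → T N ≤ T' N) : SubQ T := by
  obtain ⟨δ, C, h1, h2, h3, h4⟩ := h
  set D : ℝ := ∑ N ∈ Finset.range N₀, |T N| with hD
  have hD0 : 0 ≤ D := Finset.sum_nonneg fun _ _ => abs_nonneg _
  refine ⟨δ, C + D, h1, h2, add_nonneg h3 hD0, fun N => ?_⟩
  have hb : (1 : ℝ) ≤ ((N : ℝ) + 1) ^ (2 - δ) :=
    Real.one_le_rpow (one_le_base N) (by linarith)
  rcases Nat.lt_or_ge N N₀ with h | h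
  · have e1 : T N ≤ D := (le_abs_self _).trans
      (Finset.single_le_sum (f := fun N => |T N|) (fun _ _ => abs_nonneg _)
        (Finset.mem_range.2 h))
    nlinarith
  · have e1 := (hle N h).trans (h4 N)
    nlinarith

/-- sums over the guesses -/
theorem SubQ.sum {T : ℕ → ℕ → ℝ} {T' : ℕ → ℝ} (h : SubQ T') (hT : ∀ N g, T N g ≤ T' N)
    (hT' : ∀ N, 0 ≤ T' N) (G : ℕ → ℕ) (hG : ∀ N, G N ≤ Nat.log 2 (N + 2) + 1) :
    SubQ (fun N => ∑ g ∈ Finset.range (G N), T N g) := by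
  refine (h.mul_log 1).mono fun N => ?_
  calc ∑ g ∈ Finset.range (G N), T N g ≤ ∑ _g ∈ Finset.range (G N), T' N :=
        Finset.sum_le_sum fun g _ => hT N g
    _ = G N * T' N := by rw [Finset.sum_const, Finset.card_range, nsmul_eq_mul]
    _ ≤ ((Nat.log 2 (N + 2) : ℝ) + 1) * T' N := by
        apply mul_le_mul_of_nonneg_right _ (hT' N)
        exact_mod_cast hG N
    _ = _ := by ring

theorem subQ_lin : SubQ (fun N => (N : ℝ) + 1) :=
  ⟨1, 1, one_pos, le_rfl, zero_le_one, fun N => by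
    rw [show (2 : ℝ) - 1 = 1 by norm_num, Real.rpow_one, one_mul]⟩

theorem subQ_const (c : ℝ) : SubQ (fun _ => c) := by
  refine (subQ_lin.const_mul (abs_nonneg c)).mono fun N => ?_
  have := one_le_base N
  have h1 := le_abs_self c
  have h2 := abs_nonneg c
  nlinarith

/-- a power saving -/
theorem subQ_rpow {T : ℕ → ℝ} {C δ : ℝ} (hδ : 0 < δ) (hC : 0 ≤ C)
    (h : ∀ N : ℕ, T N ≤ C * (((N : ℝ) + 1) ^ 2 * ((N : ℝ) + 1) ^ (-δ))) : SubQ T := by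
  refine ⟨min δ 1, C, lt_min hδ one_pos, min_le_right _ _, hC, fun N => (h N).trans ?_⟩
  apply mul_le_mul_of_nonneg_left _ hC
  rw [← Real.rpow_natCast, ← Real.rpow_add (by positivity)]
  apply Real.rpow_le_rpow_of_exponent_le (one_le_base N)
  have := min_le_left δ 1
  push_cast
  linarith

/-! ### Exponentials of the number of levels -/

section lev

variable {B M q : ℕ} (hB : 2 ≤ B) (hM : 2 ≤ M) (hq : 1 ≤ q)

include hB hM hq in
/-- `exp (- c n)` is a negative power of `N` (`n` = number of levels). -/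
theorem exp_neg_lev {c : ℝ} (hc : 0 < c) : ∃ δ C : ℝ, 0 < δ ∧ 0 ≤ C ∧ ∀ N : ℕ,
    Real.exp (-(c * lev B M q N)) ≤ C * ((N : ℝ) + 1) ^ (-δ) := by
  have hM' : (1 : ℝ) < M := by exact_mod_cast hM
  have hlM : 0 < Real.log M := Real.log_pos hM'
  have hqpos : (0 : ℝ) < q := by exact_mod_cast hq
  set γ : ℝ := c / (q * Real.log M) with hγ
  have hγpos : 0 < γ := by positivity
  obtain ⟨C₁, hC₁1, hC₁⟩ := exp_loglog_le c 6 (η := γ / 2) (by positivity)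
  refine ⟨γ / 2, C₁, by positivity, by linarith, fun N => ?_⟩
  set w : ℕ := 2 ^ scalN B M q N with hw
  have h1 : ((N : ℝ) + 1) ≤ (M : ℝ) ^ ((q : ℝ) * (lev B M q N + (w : ℝ))) := by
    have : ((q : ℝ) * (lev B M q N + (w : ℝ))) = ((q * (lev B M q N + w) : ℕ) : ℝ) := by
      push_cast; ring
    rw [this, Real.rpow_natCast]
    exact_mod_cast (lt_rows_pow hM hq B N).le
  have h2 := exp_neg_le hM hq hc h1
  have h3 := hC₁ N w (by exact_mod_cast two_pow_scalN_le hB hM q N) (Nat.cast_nonneg w)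
  refine h2.trans ?_
  calc Real.exp (c * w) * ((N : ℝ) + 1) ^ (-γ)
      ≤ (C₁ * ((N : ℝ) + 1) ^ (γ / 2)) * ((N : ℝ) + 1) ^ (-γ) :=
        mul_le_mul_of_nonneg_right h3 (by positivity)
    _ = C₁ * (((N : ℝ) + 1) ^ (γ / 2) * ((N : ℝ) + 1) ^ (-γ)) := by ring
    _ = C₁ * ((N : ℝ) + 1) ^ (-(γ / 2)) := by
        rw [← Real.rpow_add (by positivity)]; congr 2; ring

include hB hM hq in
theorem subQ_exp {c : ℝ} (hc : 0 < c) :
    SubQ (fun N => ((N : ℝ) + 1) ^ 2 * Real.exp (-(c * lev B M q N))) := by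
  obtain ⟨δ, C, hδ, hC, h⟩ := exp_neg_lev hB hM hq hc
  refine subQ_rpow hδ hC fun N => ?_
  calc ((N : ℝ) + 1) ^ 2 * Real.exp (-(c * lev B M q N))
      ≤ ((N : ℝ) + 1) ^ 2 * (C * ((N : ℝ) + 1) ^ (-δ)) :=
        mul_le_mul_of_nonneg_left (h N) (by positivity)
    _ = _ := by ring

end lev

/-- number of levels is large for large `N` -/
theorem le_lev {B M q : ℕ} (hB : 2 ≤ B) (hM : 2 ≤ M) (hq : 1 ≤ q) (n₀ : ℕ) :
    ∃ N₀ : ℕ, ∀ N, N₀ ≤ N → n₀ ≤ lev B M q N := by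
  obtain ⟨δ, C, hδ, hC, h⟩ := exp_neg_lev hB hM hq (c := 1) one_pos
  -- `exp (-n) ≤ C (N+1)^(-δ) < exp (-n₀)` for large `N`
  have ht : Filter.Tendsto (fun N : ℕ => C * ((N : ℝ) + 1) ^ (-δ)) Filter.atTop (nhds 0) := by
    have h1 : Filter.Tendsto (fun x : ℝ => x ^ (-δ)) Filter.atTop (nhds 0) :=
      tendsto_rpow_neg_atTop hδ
    have h2 : Filter.Tendsto (fun n : ℕ => (n : ℝ) + 1) Filter.atTop Filter.atTop :=
      Filter.tendsto_atTop_add_const_right _ _ tendsto_natCast_atTop_atTop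
    have h3 := (h1.comp h2).const_mul C
    rw [mul_zero] at h3
    exact h3
  have h4 := ht.eventually (gt_mem_nhds (Real.exp_pos (-(n₀ : ℝ))))
  obtain ⟨N₀, hN₀⟩ := Filter.eventually_atTop.1 h4
  refine ⟨N₀, fun N hN => ?_⟩
  have h5 := (h N).trans_lt (hN₀ N hN)
  have h6 := Real.exp_lt_exp.1 h5
  have h7 : (n₀ : ℝ) < lev B M q N := by linarith
  exact_mod_cast h7.le

end Vale.Agent.P315.H608
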