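import Vale.Agent.P315.H608.Cst2
import Vale.Agent.P315.H527.Large
import Vale.Agent.P315.H873.MulTime

/-!
# Milestone 2: all parameters are polynomially bounded
-/

set_option autoImplicit false

namespace Vale.Agent.P315.H608

open Vale.Agent.P315.H809 Vale.Agent.P315.H527 Vale.Agent.P315.H873

/-- `f n g` is at most a polynomial in `K g` and `n`. -/
def PN (c : Cst) (f : ℕ → ℕ → ℕ) : Prop :=
  ∃ C a b : ℕ, ∀ n g, f n g ≤ C * (c.K g ^ a * (n + 1) ^ b)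

section PN

variable {c : Cst} {f f' : ℕ → ℕ → ℕ}

theorem PN.mono (h : PN c f) (hle : ∀ n g, f' n g ≤ f n g) : PN c f' := by
  obtain ⟨C, a, b, h⟩ := h
  exact ⟨C, a, b, fun n g => (hle n g).trans (h n g)⟩

theorem PN.of_PK {f : ℕ → ℕ} (h : PK c f) : PN c (fun _ g => f g) := by
  obtain ⟨C, a, h⟩ := h
  exact ⟨C, a, 0, fun n g => by rw [pow_zero, Nat.mul_one]; exact h g⟩

theorem PN.const (k : ℕ) : PN c (fun _ _ => k) := ⟨k, 0, 0, fun n g => by simp⟩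

theorem PN.n : PN c (fun n _ => n) :=
  ⟨1, 0, 1, fun n g => by
    rw [pow_zero, Nat.one_mul, Nat.one_mul, pow_one]
    exact Nat.le_succ n⟩

theorem PN.K : PN c (fun _ g => c.K g) := PN.of_PK PK.K

theorem PN.add (h : PN c f) (h' : PN c f') : PN c (fun n g => f n g + f' n g) := by
  obtain ⟨C, a, b, h⟩ := h
  obtain ⟨C', a', b', h'⟩ := h'
  refine ⟨C + C', a + a', b + b', fun n g => ?_⟩
  have hK := Cst.K_pos (c := c) g
  have h1 : c.K g ^ a * (n + 1) ^ b ≤ c.K g ^ (a + a') * (n + 1) ^ (b + b') :=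
    Nat.mul_le_mul (Nat.pow_le_pow_right hK (by omega))
      (Nat.pow_le_pow_right (by omega) (by omega))
  have h2 : c.K g ^ a' * (n + 1) ^ b' ≤ c.K g ^ (a + a') * (n + 1) ^ (b + b') :=
    Nat.mul_le_mul (Nat.pow_le_pow_right hK (by omega))
      (Nat.pow_le_pow_right (by omega) (by omega))
  calc f n g + f' n g ≤ C * (c.K g ^ (a + a') * (n + 1) ^ (b + b')) +
        C' * (c.K g ^ (a + a') * (n + 1) ^ (b + b')) :=
        Nat.add_le_add ((h n g).trans (Nat.mul_le_mul_left _ h1))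
          ((h' n g).trans (Nat.mul_le_mul_left _ h2))
    _ = _ := by ring

theorem PN.mul (h : PN c f) (h' : PN c f') : PN c (fun n g => f n g * f' n g) := by
  obtain ⟨C, a, b, h⟩ := h
  obtain ⟨C', a', b', h'⟩ := h'
  refine ⟨C * C', a + a', b + b', fun n g => ?_⟩
  calc f n g * f' n g ≤ (C * (c.K g ^ a * (n + 1) ^ b)) * (C' * (c.K g ^ a' * (n + 1) ^ b')) :=
        Nat.mul_le_mul (h n g) (h' n g)
    _ = _ := by rw [pow_add, pow_add]; ring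

theorem PN.pow (h : PN c f) (k : ℕ) : PN c (fun n g => f n g ^ k) := by
  obtain ⟨C, a, b, h⟩ := h
  refine ⟨C ^ k, a * k, b * k, fun n g => ?_⟩
  calc f n g ^ k ≤ (C * (c.K g ^ a * (n + 1) ^ b)) ^ k := Nat.pow_le_pow_left (h n g) k
    _ = _ := by rw [mul_pow, mul_pow, ← pow_mul, ← pow_mul]

/-- one exponent for everything -/
theorem PN.bound (h : PN c f) :
    ∃ κ : ℕ, ∀ q n : ℕ, 1 ≤ q → f n (lev0 c.M q n) ≤ (n + 2) ^ κ := by
  obtain ⟨C, a, b, h⟩ := h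
  refine ⟨C + (a + b), fun q n hq => (h n _).trans ?_⟩
  have h1 : c.K (lev0 c.M q n) ≤ n + 2 := (Cst.K_le hq n).trans (by omega)
  calc C * (c.K (lev0 c.M q n) ^ a * (n + 1) ^ b) ≤ (n + 2) ^ C * ((n + 2) ^ a * (n + 2) ^ b) := by
        apply Nat.mul_le_mul _ (Nat.mul_le_mul (Nat.pow_le_pow_left h1 a)
          (Nat.pow_le_pow_left (by omega) b))
        calc C ≤ 2 ^ C := Nat.lt_two_pow_self.le
          _ ≤ (n + 2) ^ C := Nat.pow_le_pow_left (by omega) _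
    _ = _ := by rw [pow_add, pow_add]

end PN

namespace Cst2

variable (c : Cst2)

theorem PN_w : PN c.toCst (fun _ g => 2 ^ c.w g) :=
  (PN.K (c := c.toCst)).mono fun _ g => two_pow_w_le g

theorem PN_z : PN c.toCst (fun _ g => 2 ^ c.z g) := PN.of_PK (PK.two_pow_S c.e₀ c.e₁)

theorem PN_wz : PN c.toCst (fun _ g => 2 ^ (c.w g + c.z g)) :=
  (c.PN_w.mul c.PN_z).mono fun _ g => (pow_add 2 (c.w g) (c.z g)).le

theorem PN_Kc : PN c.toCst (fun _ g => 2 ^ c.Kc g) :=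
  (c.PN_w.mul (PN.const (2 ^ c.c2))).mono fun _ g => (pow_add 2 (c.w g) c.c2).le

theorem PN_μ2 : PN c.toCst (fun n g => c.μ2 n g) :=
  (PN.n.add (PN.const 1)).mono fun n _ => Nat.add_le_add_right (Nat.div_le_self n _) 1

theorem PN_w0 : PN c.toCst (fun n g => c.w0 n g) := c.PN_z.mul c.PN_μ2

theorem PN_ℓ2 : PN c.toCst (fun n g => c.ℓ2 n g) := c.PN_wz.mul c.PN_μ2

theorem PN_ℓh : PN c.toCst (fun n g => c.ℓh n g) :=
  c.PN_ℓ2.mono fun n g => by rw [ℓ2_eq_two_mul]; omega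

theorem PN_c0 : PN c.toCst (fun n g => c.c0 n g) := PN.K.mul c.PN_ℓh

theorem PN_B2 : PN c.toCst (fun n g => c.B2 n g) :=
  (PN.const 2).mul (c.PN_Kc.mul (c.PN_w0.mul PN.K))

theorem PN_nS : PN c.toCst (fun n g => c.nS n g) :=
  (c.PN_B2.add (PN.const 1)).mono fun _ _ => Nat.add_le_add_right (Nat.div_le_self _ _) 1

theorem PN_nE : PN c.toCst (fun n g => c.nE n g) :=
  (c.PN_ℓ2.add (PN.const 1)).mono fun _ _ => Nat.add_le_add_right (Nat.div_le_self _ _) 1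

theorem PN_D2 : PN c.toCst (fun _ g => c.D2 g) :=
  ((c.PN_wz.mul (PN.const (2 ^ (c.c2 + 4)))).mul PN.K).mono fun _ g => by
    unfold D2
    rw [show c.w g + c.z g + c.c2 + 4 = (c.w g + c.z g) + (c.c2 + 4) by ring, pow_add]

theorem PN_Q : PN c.toCst (fun _ g => c.Q g) :=
  ((PN.const (2 * c.C0)).mul (PN.K.pow 2)).mono fun _ g => Cst.Q_le g

theorem PN_Q2 : PN c.toCst (fun _ g => c.Q2 g) :=
  (c.PN_Q.mul ((c.PN_Kc.mul c.PN_z).mul (PN.const (2 ^ 5)))).mono fun _ g => by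
    unfold Q2
    rw [pow_add, pow_add]

theorem PN_NV : PN c.toCst (fun n g => c.NV n g) := (PN.K.mul c.PN_nS).mul c.PN_nE

theorem PN_Cn : PN c.toCst (fun _ g => c.Cn g) :=
  (PN.of_PK (PK.two_pow_S c.ms 0)).mono fun _ _ => le_rfl

theorem PN_Nu2 : PN c.toCst (fun _ g => c.Nu2 g) := by
  have hL : PN c.toCst (fun _ g => c.L g + 1) := (PN.of_PK PK.L).add (PN.const 1)
  have hS : PN c.toCst (fun _ g => c.S g + 1) := (PN.of_PK PK.S).add (PN.const 1)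
  exact (hL.mul (PN.const c.M)).add (hL.mul (hS.mul c.PN_Cn))

theorem PN_md : PN c.toCst (fun n g => c.md n g) := by
  refine (((PN.const (2 ^ (c.kc + 1))).mul (PN.of_PK (PK.two_pow_S (c := c.toCst) c.mt 0))).mul
    c.PN_ℓ2).mono fun n g => ?_
  have h1 : 2 ^ Nat.log 2 (c.ℓ2 n g) ≤ c.ℓ2 n g :=
    Nat.pow_log_le_self 2 (by have := ℓ2_pos (c := c) n g; omega)
  unfold md lmd
  calc 2 ^ (c.kc + c.mt * 2 ^ c.S g + Nat.log 2 (c.ℓ2 n g) + 1)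
      = 2 ^ (c.kc + 1) * 2 ^ (c.mt * 2 ^ c.S g + 0) * 2 ^ Nat.log 2 (c.ℓ2 n g) := by
        rw [← pow_add, ← pow_add]; congr 1; ring
    _ ≤ _ := Nat.mul_le_mul_left _ h1

theorem PN_lam : PN c.toCst (fun _ g => 2 ^ c.lam g) := c.PN_w

theorem PN_kap : PN c.toCst (fun _ g => 2 ^ c.kap g) :=
  (PN.K (c := c.toCst)).mono fun _ g => (K_eq g).ge

theorem two_pow_se_le_add (n g : ℕ) : 2 ^ c.se n g ≤ c.ℓ2 n g + 2 ^ 80 * c.K g ^ 10 := by
  unfold se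
  rcases le_total (Nat.log 2 (c.ℓ2 n g)) (10 * (c.lam g + 8)) with h | h
  · rw [max_eq_right h]
    have h1 : 2 ^ (10 * (c.lam g + 8)) ≤ 2 ^ 80 * c.K g ^ 10 := by
      calc 2 ^ (10 * (c.lam g + 8)) = 2 ^ 80 * (2 ^ c.w g) ^ 10 := by
            unfold lam
            rw [← pow_mul, ← pow_add]; congr 1; ring
        _ ≤ _ := Nat.mul_le_mul_left _ (Nat.pow_le_pow_left (two_pow_w_le g) _)
    omega
  · rw [max_eq_left h]
    have h1 : 2 ^ Nat.log 2 (c.ℓ2 n g) ≤ c.ℓ2 n g :=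
      Nat.pow_log_le_self 2 (by have := ℓ2_pos (c := c) n g; omega)
    omega

theorem PN_se : PN c.toCst (fun n g => 2 ^ c.se n g) :=
  (c.PN_ℓ2.add ((PN.const (2 ^ 80)).mul (PN.K.pow 10))).mono fun n g => c.two_pow_se_le_add n g

theorem PN_kb : PN c.toCst (fun n _ => n + c.C1 * (n + 1)) :=
  PN.n.add ((PN.const c.C1).mul (PN.n.add (PN.const 1)))

theorem kb_le (N₀ n g : ℕ) : c.kb N₀ n g ≤ n + c.C1 * (n + 1) := by
  unfold kb
  split_ifs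
  · omega
  · have : c.C1 * (n / 2 ^ c.w g + 1) ≤ c.C1 * (n + 1) :=
      Nat.mul_le_mul_left _ (Nat.add_le_add_right (Nat.div_le_self _ _) 1)
    omega

/-- Everything is at most `X`. -/
structure Size (n g X : ℕ) : Prop where
  s_n2 : n + 2 ≤ X
  s_K : c.K g ≤ X
  s_L : c.L g + 1 ≤ X
  s_powS : 2 ^ c.S g ≤ X
  s_w : 2 ^ c.w g ≤ X
  s_z : 2 ^ c.z g ≤ X
  s_wz : 2 ^ (c.w g + c.z g) ≤ X
  s_Kc : 2 ^ c.Kc g ≤ X
  s_μ2 : c.μ2 n g ≤ X
  s_w0 : c.w0 n g ≤ X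
  s_ℓ2 : c.ℓ2 n g ≤ X
  s_ℓh : c.ℓh n g ≤ X
  s_c0 : c.c0 n g ≤ X
  s_B2 : c.B2 n g ≤ X
  s_nS : c.nS n g ≤ X
  s_nE : c.nE n g ≤ X
  s_D2 : c.D2 g ≤ X
  s_Q : c.Q g ≤ X
  s_Q2 : c.Q2 g ≤ X
  s_NV : c.NV n g ≤ X
  s_Cn : c.Cn g ≤ X
  s_Nu2 : c.Nu2 g ≤ X
  s_md : c.md n g ≤ X
  s_lam : 2 ^ c.lam g ≤ X
  s_kap : 2 ^ c.kap g ≤ X
  s_se : 2 ^ c.se n g ≤ X
  s_kb : ∀ N₀, c.kb N₀ n g ≤ X

/-- **One exponent for all parameters**, independent of `q`. -/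
theorem exists_size : ∃ κ : ℕ, ∀ q n : ℕ, 1 ≤ q → c.Size n (lev0 c.M q n) ((n + 2) ^ κ) := by
  have hS : PN c.toCst (fun _ g => 2 ^ c.S g) :=
    ((PN.const 288).mul PN.K).mono fun _ g => Cst.two_pow_S_le_K g
  have hL : PN c.toCst (fun _ g => c.L g + 1) := (PN.of_PK PK.L).add (PN.const 1)
  have h := (((((((((((((((((((((((((PN.n.add (PN.const 2)).add PN.K).add hL).add hS).add
    c.PN_w).add c.PN_z).add c.PN_wz).add c.PN_Kc).add c.PN_μ2).add c.PN_w0).add c.PN_ℓ2).add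
    c.PN_ℓh).add c.PN_c0).add c.PN_B2).add c.PN_nS).add c.PN_nE).add c.PN_D2).add c.PN_Q).add
    c.PN_Q2).add c.PN_NV).add c.PN_Cn).add c.PN_Nu2).add c.PN_md).add c.PN_se).add c.PN_kb)
  obtain ⟨κ, hκ⟩ := h.bound
  refine ⟨κ, fun q n hq => ?_⟩
  have h1 := hκ q n hq
  set g := lev0 c.M q n with hg
  have hkap := K_eq (c := c) g
  have hkb := fun N₀ => c.kb_le N₀ n g
  set X := (n + 2) ^ κ with hX
  have p1 := Nat.zero_le (2 ^ c.S g)
  have p2 := Nat.zero_le (2 ^ c.w g)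
  have p3 := Nat.zero_le (2 ^ c.z g)
  have p4 := Nat.zero_le (2 ^ (c.w g + c.z g))
  have p5 := Nat.zero_le (2 ^ c.Kc g)
  have p6 := Nat.zero_le (2 ^ c.se n g)
  constructor
  all_goals first
    | (intro N₀; have := hkb N₀; omega)
    | (rw [← hkap]; omega)
    | (show 2 ^ c.w g ≤ X; omega)
    | omega

/-- The numbers of the machines are at most `K`, for large `g`. -/
theorem exists_le_K (c : Cst2) (a b : ℕ) (hak : 2 ≤ c.ak) : ∃ g₁ : ℕ, ∀ g, g₁ ≤ g →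
    2 ^ (a * 2 ^ c.S g + b) ≤ c.K g ∧ 2 ^ b ≤ c.K g ∧ 2 ^ (c.Kc g + b) ≤ c.K g ∧ b ≤ c.L g := by
  obtain ⟨g₁, h1⟩ := Cst.exists_powS c.toCst (2 * a)
  obtain ⟨g₂, h2⟩ := Cst.exists_L c.toCst (2 * (c.c2 + b))
  refine ⟨max g₁ g₂, fun g hg => ?_⟩
  have e1 := h1 g (le_trans (le_max_left _ _) hg)
  have e2 := h2 g (le_trans (le_max_right _ _) hg)
  have e3 : 2 * c.w g ≤ c.L g := (Nat.mul_le_mul_right _ hak).trans (ak_mul_w_le g)
  have e4 : 2 * (a * 2 ^ c.S g) ≤ c.L g := by rw [← Nat.mul_assoc]; exact e1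
  have hK : 2 ^ c.L g ≤ c.K g := Cst.two_pow_L_le g
  refine ⟨(Nat.pow_le_pow_right (by norm_num) ?_).trans hK,
    (Nat.pow_le_pow_right (by norm_num) ?_).trans hK,
    (Nat.pow_le_pow_right (by norm_num) ?_).trans hK, ?_⟩
  · omega
  · omega
  · unfold Kc; omega
  · omega

end Cst2

end Vale.Agent.P315.H608
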