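import Vale.Agent.P315.H608.Cst2
import Vale.Agent.P315.H608.SubQ

/-!
# Milestone 2: all parts of the running time are truly subquadratic

`G q N = lev0 M q N` = the number of levels before rounding.
-/

set_option autoImplicit false

namespace Vale.Agent.P315.H608

open Vale.Agent.P315.H809 Vale.Agent.P315.H527

namespace Cst2

variable (c : Cst2)

/-- the number of levels before rounding -/
abbrev G (q N : ℕ) : ℕ := lev0 c.M q N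

/-- the exponent of the saving -/
noncomputable def c1 : ℝ := Real.log 2 / c.h

theorem c1_pos : 0 < c.c1 := by
  have := c.hh
  unfold c1
  have h1 : 0 < Real.log 2 := Real.log_pos (by norm_num)
  have h2 : (0 : ℝ) < c.h := by exact_mod_cast this
  positivity

/-- the condition on `ak` in natural numbers -/
theorem two_mul_le_c1 {a : ℕ} (h : 3 * (a * c.h) ≤ c.ak) : 2 * (a : ℝ) ≤ c.c1 * c.ak := by
  have hh0 : (0 : ℝ) < c.h := by exact_mod_cast c.hh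
  have h1 : 3 * ((a : ℝ) * c.h) ≤ c.ak := by exact_mod_cast h
  have h2 : (0.6931471803 : ℝ) < Real.log 2 := Real.log_two_gt_d9
  unfold c1
  rw [div_mul_eq_mul_div, le_div_iff₀ hh0]
  have ha : (0 : ℝ) ≤ (a : ℝ) * c.h := by positivity
  nlinarith

/-- `1 ≤ K ^ 2 exp (- c L)` -/
theorem one_le_K_exp (g : ℕ) : 1 ≤ (c.K g : ℝ) ^ 2 * Real.exp (-(c.c1 * c.L g)) := by
  have hl2 : 0 < Real.log 2 := Real.log_pos (by norm_num)
  have h1 : c.c1 ≤ Real.log 2 := by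
    unfold c1
    have h2 : (1 : ℝ) ≤ c.h := by exact_mod_cast c.hh
    exact div_le_self hl2.le h2
  have h2 : Real.exp (c.c1 * c.L g) ≤ (c.K g : ℝ) := by
    calc Real.exp (c.c1 * c.L g) ≤ Real.exp (Real.log 2 * c.L g) :=
          Real.exp_le_exp.2 (mul_le_mul_of_nonneg_right h1 (Nat.cast_nonneg _))
      _ = 2 ^ c.L g := by rw [mul_comm, Real.exp_nat_mul, Real.exp_log (by norm_num)]
      _ ≤ (c.K g : ℝ) := by
          have : 2 ^ c.L g ≤ c.K g := Nat.pow_le_pow_left c.hM _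
          exact_mod_cast this
  have h3 : (1 : ℝ) ≤ c.K g := by exact_mod_cast Cst.K_pos g
  rw [Real.exp_neg, ← div_eq_mul_inv, le_div_iff₀ (Real.exp_pos _), one_mul]
  nlinarith

/-- upper bound for the number of cells -/
theorem Q_le3 (g : ℕ) : (c.Q g : ℝ) ≤
    3 * c.C0 * ((c.K g : ℝ) ^ 2 * Real.exp (-(c.c1 * c.L g))) := by
  have h1 := Cst.Q_le_exp (c := c.toCst) g
  have h2 := c.one_le_K_exp g
  have hC : (0 : ℝ) ≤ c.C0 := Nat.cast_nonneg _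
  unfold c1 at h2 ⊢
  nlinarith

/-- powers of `2 ^ w` against the saving -/
theorem pow_w_exp_le (a : ℕ) (ha : 2 * (a : ℝ) ≤ c.c1 * c.ak) (g : ℕ) :
    ((2 : ℝ) ^ c.w g) ^ a * Real.exp (-(c.c1 * c.L g)) ≤ Real.exp (-(c.c1 / 2 * c.L g)) :=
  two_pow_mul_exp_le a c.hak ha (ak_mul_w_le g)

/-- **The number of cells is large enough** for the bound of the query theorem with the loss
`2 ^ (a₀ Kc)`. -/
theorem area_le_Q (a₀ : ℕ) {A a : ℝ} (hA0 : 0 ≤ A) (hA : A * (2 : ℝ) ^ (a₀ * c.c2) ≤ c.C0)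
    (hh : Real.log 2 / c.h ≤ a / 2) (hak : 2 * (a₀ : ℝ) ≤ a * c.ak) (g : ℕ) :
    A * 2 ^ (a₀ * c.Kc g) * ((c.K g : ℝ) ^ 2 * Real.exp (-a * c.L g)) ≤ c.Q g := by
  refine le_trans ?_ (Cst.le_Q_of (c := c.toCst) hA hh g)
  have h1 : ((2 : ℝ) ^ c.w g) ^ a₀ * Real.exp (-(a * c.L g)) ≤ Real.exp (-(a / 2 * c.L g)) :=
    two_pow_mul_exp_le a₀ c.hak hak (ak_mul_w_le g)
  have h2 : (2 : ℝ) ^ (a₀ * c.Kc g) = 2 ^ (a₀ * c.c2) * ((2 : ℝ) ^ c.w g) ^ a₀ := by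
    unfold Kc
    rw [← pow_mul, ← pow_add]; congr 1; ring
  calc A * 2 ^ (a₀ * c.Kc g) * ((c.K g : ℝ) ^ 2 * Real.exp (-a * c.L g))
      = A * 2 ^ (a₀ * c.c2) * ((c.K g : ℝ) ^ 2 *
          (((2 : ℝ) ^ c.w g) ^ a₀ * Real.exp (-(a * c.L g)))) := by
        rw [h2, show -a * (c.L g : ℝ) = -(a * c.L g) by ring]; ring
    _ ≤ A * 2 ^ (a₀ * c.c2) * ((c.K g : ℝ) ^ 2 * Real.exp (-(a / 2 * c.L g))) := by
        apply mul_le_mul_of_nonneg_left _ (by positivity)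
        exact mul_le_mul_of_nonneg_left h1 (by positivity)
    _ = _ := by rw [show -(a / 2) * (c.L g : ℝ) = -(a / 2 * c.L g) by ring]

/-! ### At `g = lev0 M q n` -/

variable {c}

theorem K_pow_le_of_le {q a : ℕ} (ha : a ≤ q) (N : ℕ) : c.K (c.G q N) ^ a ≤ N + 1 :=
  Cst.K_pow_le_of_le ha N

theorem K_mul_two_pow_w_le {q : ℕ} (hq : 2 ≤ q) (N : ℕ) :
    c.K (c.G q N) * 2 ^ c.w (c.G q N) ≤ N + 1 := by
  refine le_trans ?_ (K_pow_le_of_le (c := c) hq N)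
  rw [pow_two]
  exact Nat.mul_le_mul_left _ (two_pow_w_le _)

theorem K_mul_ℓ2_le' {q : ℕ} (hq : 2 ≤ q) (N : ℕ) :
    c.K (c.G q N) * c.ℓ2 N (c.G q N) ≤ (N + 1) * (2 * 2 ^ c.z (c.G q N)) := by
  have h1 := K_mul_ℓ2_le (c := c) N (c.G q N)
  have h2 : c.K (c.G q N) * 2 ^ (c.w (c.G q N) + c.z (c.G q N)) ≤
      (N + 1) * 2 ^ c.z (c.G q N) := by
    rw [pow_add, ← Nat.mul_assoc]
    exact Nat.mul_le_mul_right _ (K_mul_two_pow_w_le hq N)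
  have h3 : N ≤ (N + 1) * 2 ^ c.z (c.G q N) := by
    have : 1 ≤ 2 ^ c.z (c.G q N) := Nat.one_le_two_pow
    nlinarith
  calc c.K (c.G q N) * c.ℓ2 N (c.G q N) ≤
        (N + 1) * 2 ^ c.z (c.G q N) + (N + 1) * 2 ^ c.z (c.G q N) := by omega
    _ = _ := by ring

theorem K_mul_ℓ2_real {q : ℕ} (hq : 2 ≤ q) (N : ℕ) :
    (c.K (c.G q N) : ℝ) * c.ℓ2 N (c.G q N) ≤ ((N : ℝ) + 1) * (2 * 2 ^ c.z (c.G q N)) := by
  exact_mod_cast K_mul_ℓ2_le' hq N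

theorem ℓ2_le' {q : ℕ} (hq : 2 ≤ q) (N : ℕ) :
    c.ℓ2 N (c.G q N) ≤ (N + 1) * (2 * 2 ^ c.z (c.G q N)) :=
  (Nat.le_mul_of_pos_left _ (Cst.K_pos _)).trans (K_mul_ℓ2_le' hq N)

/-- `2 ^ z` is a power of the logarithm -/
theorem two_pow_z_le (q N : ℕ) : (2 : ℝ) ^ c.z (c.G q N) ≤
    (2 ^ c.e₁ * 8 ^ (6 * c.e₀)) * ((Nat.log 2 (N + 2) : ℝ) + 1) ^ (6 * c.e₀) := by
  have h1 : 2 ^ c.S (c.G q N) ≤ 6 * (Nat.log 2 (Nat.log 2 (N + 1) + 2) + 1) :=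
    two_pow_scalN_le c.hB c.hM q N
  set t := Nat.log 2 (N + 1) + 2 with ht
  have h2 : 2 ^ (c.e₀ * 2 ^ c.S (c.G q N)) ≤ (2 * t) ^ (6 * c.e₀) := by
    calc 2 ^ (c.e₀ * 2 ^ c.S (c.G q N)) ≤ 2 ^ (c.e₀ * (6 * (Nat.log 2 t + 1))) :=
          Nat.pow_le_pow_right (by norm_num) (Nat.mul_le_mul_left _ h1)
      _ = (2 * 2 ^ Nat.log 2 t) ^ (6 * c.e₀) := by
          rw [← pow_succ', ← pow_mul]; congr 1; ring
      _ ≤ (2 * t) ^ (6 * c.e₀) :=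
          Nat.pow_le_pow_left (Nat.mul_le_mul_left _ (Nat.pow_log_le_self 2 (by omega))) _
  have h3 : (t : ℝ) ≤ 4 * ((Nat.log 2 (N + 2) : ℝ) + 1) := by
    have h4 : (Nat.log 2 (N + 1) : ℝ) ≤ Nat.log 2 (N + 2) := by
      exact_mod_cast Nat.log_mono_right (by omega)
    have h0 : (0 : ℝ) ≤ Nat.log 2 (N + 2) := Nat.cast_nonneg _
    rw [ht]
    push_cast
    linarith
  have h5 : (2 : ℝ) ^ (c.e₀ * 2 ^ c.S (c.G q N)) ≤
      8 ^ (6 * c.e₀) * ((Nat.log 2 (N + 2) : ℝ) + 1) ^ (6 * c.e₀) := by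
    calc (2 : ℝ) ^ (c.e₀ * 2 ^ c.S (c.G q N)) ≤ (2 * (t : ℝ)) ^ (6 * c.e₀) := by
          exact_mod_cast h2
      _ ≤ (8 * ((Nat.log 2 (N + 2) : ℝ) + 1)) ^ (6 * c.e₀) := by
          apply pow_le_pow_left₀ (by positivity)
          linarith
      _ = _ := by rw [mul_pow]
  have h6 : (2 : ℝ) ^ c.z (c.G q N) = 2 ^ c.e₁ * 2 ^ (c.e₀ * 2 ^ c.S (c.G q N)) := by
    exact_mod_cast two_pow_z_eq (c := c) (c.G q N)
  rw [h6, mul_assoc]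
  exact mul_le_mul_of_nonneg_left h5 (by positivity)

variable (c)

/-- powers of `2 ^ z` are powers of the logarithm -/
theorem subQ_z (q : ℕ) {T : ℕ → ℝ} (hT : SubQ T) (hT0 : ∀ N, 0 ≤ T N) (b : ℕ) :
    SubQ (fun N => T N * ((2 : ℝ) ^ c.z (c.G q N)) ^ b) := by
  refine ((hT.mul_log (6 * c.e₀ * b)).const_mul
    (c := ((2 : ℝ) ^ c.e₁ * 8 ^ (6 * c.e₀)) ^ b) (by positivity)).mono fun N => ?_
  have h1 : ((2 : ℝ) ^ c.z (c.G q N)) ^ b ≤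
      ((2 ^ c.e₁ * 8 ^ (6 * c.e₀)) * ((Nat.log 2 (N + 2) : ℝ) + 1) ^ (6 * c.e₀)) ^ b :=
    pow_le_pow_left₀ (by positivity) (two_pow_z_le q N) b
  calc T N * ((2 : ℝ) ^ c.z (c.G q N)) ^ b
      ≤ T N * ((2 ^ c.e₁ * 8 ^ (6 * c.e₀)) *
          ((Nat.log 2 (N + 2) : ℝ) + 1) ^ (6 * c.e₀)) ^ b :=
        mul_le_mul_of_nonneg_left h1 (hT0 N)
    _ = _ := by rw [mul_pow, ← pow_mul ((Nat.log 2 (N + 2) : ℝ) + 1)]; ring

/-- **The reads.** `Q` cells, each of cost `(2 ^ w) ^ a * (2 ^ z) ^ b * ℓ2 ^ 2`. -/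
theorem subQ_read {q : ℕ} (hq : 2 ≤ q) (a b : ℕ) (ha : 3 * (a * c.h) ≤ c.ak) :
    SubQ (fun N => (c.Q (c.G q N) : ℝ) * ((2 : ℝ) ^ c.w (c.G q N)) ^ a *
      ((2 : ℝ) ^ c.z (c.G q N)) ^ b * (c.ℓ2 N (c.G q N) : ℝ) ^ 2) := by
  have hB := c.hB
  have hM := c.hM
  have hc1 : 0 < c.c1 / 2 := by have := c.c1_pos; positivity
  have h0 := (subQ_exp hB hM (show 1 ≤ q by omega) hc1).const_mul (c := 12 * (c.C0 : ℝ))
    (by positivity)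
  refine (c.subQ_z q h0 (fun N => by positivity) (b + 2)).mono fun N => ?_
  have h1 := c.Q_le3 (c.G q N)
  have h2 := c.pow_w_exp_le a (c.two_mul_le_c1 ha) (c.G q N)
  have h3 := K_mul_ℓ2_real (c := c) hq N
  have h4 : ((c.K (c.G q N) : ℝ) * c.ℓ2 N (c.G q N)) ^ 2 ≤
      (((N : ℝ) + 1) * (2 * 2 ^ c.z (c.G q N))) ^ 2 :=
    pow_le_pow_left₀ (by positivity) h3 2
  have hL : c.L (c.G q N) = lev c.B c.M q N := rfl
  rw [← hL]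
  generalize c.G q N = g at *
  calc (c.Q g : ℝ) * ((2 : ℝ) ^ c.w g) ^ a * ((2 : ℝ) ^ c.z g) ^ b * (c.ℓ2 N g : ℝ) ^ 2
      ≤ (3 * c.C0 * ((c.K g : ℝ) ^ 2 * Real.exp (-(c.c1 * c.L g)))) * ((2 : ℝ) ^ c.w g) ^ a *
            ((2 : ℝ) ^ c.z g) ^ b * (c.ℓ2 N g : ℝ) ^ 2 := by gcongr
    _ = 3 * c.C0 * (((2 : ℝ) ^ c.w g) ^ a * Real.exp (-(c.c1 * c.L g))) *
          ((2 : ℝ) ^ c.z g) ^ b * ((c.K g : ℝ) * c.ℓ2 N g) ^ 2 := by ring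
    _ ≤ 3 * c.C0 * Real.exp (-(c.c1 / 2 * c.L g)) * ((2 : ℝ) ^ c.z g) ^ b *
          (((N : ℝ) + 1) * (2 * 2 ^ c.z g)) ^ 2 := by gcongr
    _ = 12 * (c.C0 : ℝ) * (((N : ℝ) + 1) ^ 2 *
          Real.exp (-(c.c1 / 2 * c.L g))) * ((2 : ℝ) ^ c.z g) ^ (b + 2) := by
        rw [pow_add]; ring

/-- the number of rounds -/
theorem Q2_eq (g : ℕ) : (c.Q2 g : ℝ) =
    2 ^ (c.c2 + 5) * ((c.Q g : ℝ) * ((2 : ℝ) ^ c.w g) ^ 1 * ((2 : ℝ) ^ c.z g) ^ 1) := by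
  unfold Q2 Kc
  push_cast
  rw [show c.w g + c.c2 + c.z g + 5 = c.w g + c.z g + (c.c2 + 5) by ring, pow_add, pow_add]
  ring

/-- **The rounds**, `ℓ2 ^ 2` each. -/
theorem subQ_rounds {q : ℕ} (hq : 2 ≤ q) (ha : 3 * c.h ≤ c.ak) :
    SubQ (fun N => (c.Q2 (c.G q N) : ℝ) * (c.ℓ2 N (c.G q N) : ℝ) ^ 2) := by
  refine ((c.subQ_read hq 1 1 (by omega)).const_mul (c := (2 : ℝ) ^ (c.c2 + 5))
    (by positivity)).mono fun N => ?_
  rw [c.Q2_eq]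
  exact le_of_eq (by ring)

/-- `2 ^ w` is at least a power of `N` -/
theorem one_le_two_pow_w (g : ℕ) :
    1 ≤ 2 * Real.exp (-(Real.log 2 / c.ak * c.L g)) * 2 ^ c.w g := by
  have hak : (0 : ℝ) < c.ak := by exact_mod_cast c.hak
  have hl2 : 0 < Real.log 2 := Real.log_pos (by norm_num)
  have h1 : (c.L g : ℝ) / c.ak ≤ (c.w g : ℝ) + 1 := by
    rw [div_le_iff₀ hak]
    have : c.L g < c.ak * (c.w g + 1) := Nat.lt_mul_div_succ _ c.hak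
    have h2 : (c.L g : ℝ) < c.ak * ((c.w g : ℝ) + 1) := by exact_mod_cast this
    linarith
  have h2 : Real.exp (Real.log 2 / c.ak * c.L g) ≤ 2 * 2 ^ c.w g := by
    calc Real.exp (Real.log 2 / c.ak * c.L g) = Real.exp (Real.log 2 * ((c.L g : ℝ) / c.ak)) := by
          congr 1; ring
      _ ≤ Real.exp (Real.log 2 * ((c.w g : ℝ) + 1)) :=
          Real.exp_le_exp.2 (mul_le_mul_of_nonneg_left h1 hl2.le)
      _ = 2 * 2 ^ c.w g := by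
          rw [mul_add, mul_one, Real.exp_add, Real.exp_log (by norm_num), mul_comm (Real.log 2),
            Real.exp_nat_mul, Real.exp_log (by norm_num)]
          ring
  rw [Real.exp_neg]
  have h3 := Real.exp_pos (Real.log 2 / c.ak * c.L g)
  rw [mul_assoc, mul_comm _ ((2 : ℝ) ^ c.w g), ← mul_assoc, ← div_eq_mul_inv, le_div_iff₀ h3,
    one_mul]
  exact h2

/-- `N ^ 2 / 2 ^ w` -/
theorem subQ_div_w {q : ℕ} (hq : 1 ≤ q) :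
    SubQ (fun N => ((N : ℝ) + 1) ^ 2 / (2 : ℝ) ^ c.w (c.G q N)) := by
  have hc1 : 0 < Real.log 2 / c.ak := by
    have hak : (0 : ℝ) < c.ak := by exact_mod_cast c.hak
    have hl2 : 0 < Real.log 2 := Real.log_pos (by norm_num)
    positivity
  refine ((subQ_exp c.hB c.hM hq hc1).const_mul (c := 2) (by norm_num)).mono fun N => ?_
  have h2 := c.one_le_two_pow_w (c.G q N)
  have h0 : (0 : ℝ) < (2 : ℝ) ^ c.w (c.G q N) := by positivity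
  rw [div_le_iff₀ h0]
  have hL : c.L (c.G q N) = lev c.B c.M q N := rfl
  rw [← hL]
  have h3 : (0 : ℝ) ≤ ((N : ℝ) + 1) ^ 2 := by positivity
  nlinarith

/-- **The band.** -/
theorem subQ_band {q : ℕ} (hq : 1 ≤ q) (N₀ : ℕ) :
    SubQ (fun N => ((N : ℝ) + 1) * ((c.kb N₀ N (c.G q N) : ℝ) + 1)) := by
  have h1 := (c.subQ_div_w hq).const_mul (c := (c.C1 : ℝ)) (Nat.cast_nonneg _)
  have h2 := subQ_lin.const_mul (c := (c.C1 : ℝ) + 1) (by positivity)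
  refine (h1.add h2).of_eventually N₀ fun N hN => ?_
  rw [kb_of_le hN]
  have h3 : (((N / 2 ^ c.w (c.G q N) : ℕ)) : ℝ) ≤ (N : ℝ) / (2 : ℝ) ^ c.w (c.G q N) := by
    have := @Nat.cast_div_le ℝ _ _ _ N (2 ^ c.w (c.G q N))
    push_cast at this
    exact this
  have h4 : (N : ℝ) / (2 : ℝ) ^ c.w (c.G q N) ≤ ((N : ℝ) + 1) / (2 : ℝ) ^ c.w (c.G q N) :=
    div_le_div_of_nonneg_right (by linarith) (by positivity)
  have hC : (0 : ℝ) ≤ c.C1 := Nat.cast_nonneg _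
  have hN1 : (0 : ℝ) ≤ (N : ℝ) + 1 := by positivity
  have h5 : (((N / 2 ^ c.w (c.G q N) : ℕ)) : ℝ) ≤ ((N : ℝ) + 1) / (2 : ℝ) ^ c.w (c.G q N) :=
    h3.trans h4
  push_cast
  calc ((N : ℝ) + 1) * ((c.C1 : ℝ) * ((((N / 2 ^ c.w (c.G q N) : ℕ)) : ℝ) + 1) + 1)
      ≤ ((N : ℝ) + 1) * ((c.C1 : ℝ) * (((N : ℝ) + 1) / (2 : ℝ) ^ c.w (c.G q N) + 1) + 1) := by
        gcongr
    _ = _ := by ring

theorem K_le_rpow {q : ℕ} (hq : 1 ≤ q) (N : ℕ) :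
    (c.K (c.G q N) : ℝ) ≤ ((N : ℝ) + 1) ^ (1 / (q : ℝ)) := by
  have hq0 : (0 : ℝ) < q := by exact_mod_cast hq
  have h2 : (c.K (c.G q N) : ℝ) ^ q ≤ (N : ℝ) + 1 := by
    exact_mod_cast Cst.K_pow_le (c := c.toCst) q N
  calc (c.K (c.G q N) : ℝ) = ((c.K (c.G q N) : ℝ) ^ q) ^ (1 / (q : ℝ)) := by
        rw [← Real.rpow_natCast, ← Real.rpow_mul (Nat.cast_nonneg _),
          mul_one_div_cancel hq0.ne', Real.rpow_one]
    _ ≤ _ := Real.rpow_le_rpow (by positivity) h2 (by positivity)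

/-- `K ^ a (N + 1) ^ x` with `x + a / q < 2` -/
theorem subQ_K_rpow {q : ℕ} (hq : 1 ≤ q) (a : ℕ) {x : ℝ} (hx : x + a / q < 2) :
    SubQ (fun N => (c.K (c.G q N) : ℝ) ^ a * ((N : ℝ) + 1) ^ x) := by
  refine subQ_rpow (C := 1) (δ := 2 - x - a / q) (by linarith) zero_le_one fun N => ?_
  have hN : (0 : ℝ) < (N : ℝ) + 1 := by positivity
  have h1 := c.K_le_rpow hq N
  calc (c.K (c.G q N) : ℝ) ^ a * ((N : ℝ) + 1) ^ x
      ≤ (((N : ℝ) + 1) ^ (1 / (q : ℝ))) ^ a * ((N : ℝ) + 1) ^ x := by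
        gcongr
    _ = ((N : ℝ) + 1) ^ (x + a / q) := by
        rw [← Real.rpow_natCast, ← Real.rpow_mul hN.le, ← Real.rpow_add hN]
        congr 1; ring
    _ = 1 * (((N : ℝ) + 1) ^ 2 * ((N : ℝ) + 1) ^ (-(2 - x - a / q))) := by
        rw [one_mul, ← Real.rpow_natCast (((N : ℝ) + 1)) 2, ← Real.rpow_add hN]
        congr 1; push_cast; ring

/-- **Polynomial overheads**: `K ^ a (2 ^ w) ^ a' (2 ^ z) ^ b (log N) ^ b' (N + 1) ^ x`,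
`x + (a + a') / q < 2`. -/
theorem subQ_poly {q : ℕ} (hq : 1 ≤ q) (a a' b b' : ℕ) {x : ℝ}
    (hx : x + ((a + a' : ℕ) : ℝ) / q < 2) :
    SubQ (fun N => (c.K (c.G q N) : ℝ) ^ a * ((2 : ℝ) ^ c.w (c.G q N)) ^ a' *
      ((N : ℝ) + 1) ^ x * ((2 : ℝ) ^ c.z (c.G q N)) ^ b *
      ((Nat.log 2 (N + 2) : ℝ) + 1) ^ b') := by
  have h := (c.subQ_z q (c.subQ_K_rpow hq (a + a') hx) (fun N => by positivity) b).mul_log b'
  refine h.mono fun N => ?_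
  have h1 : (2 : ℝ) ^ c.w (c.G q N) ≤ c.K (c.G q N) := by
    exact_mod_cast two_pow_w_le (c := c) (c.G q N)
  have h2 : ((2 : ℝ) ^ c.w (c.G q N)) ^ a' ≤ (c.K (c.G q N) : ℝ) ^ a' :=
    pow_le_pow_left₀ (by positivity) h1 a'
  rw [pow_add]
  gcongr

/-- The same without a power of `N`. -/
theorem subQ_poly0 {q : ℕ} (hq : 1 ≤ q) (a a' b b' : ℕ) (hx : a + a' < 2 * q) :
    SubQ (fun N => (c.K (c.G q N) : ℝ) ^ a * ((2 : ℝ) ^ c.w (c.G q N)) ^ a' *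
      ((2 : ℝ) ^ c.z (c.G q N)) ^ b * ((Nat.log 2 (N + 2) : ℝ) + 1) ^ b') := by
  have hq0 : (0 : ℝ) < q := by exact_mod_cast hq
  have h1 : (0 : ℝ) + ((a + a' : ℕ) : ℝ) / q < 2 := by
    rw [zero_add, div_lt_iff₀ hq0]
    exact_mod_cast hx
  refine (c.subQ_poly hq a a' b b' h1).mono fun N => ?_
  rw [Real.rpow_zero, mul_one]

/-- The same with the factor `N + 1`. -/
theorem subQ_poly1 {q : ℕ} (hq : 1 ≤ q) (a a' b b' : ℕ) (hx : a + a' < q) :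
    SubQ (fun N => (c.K (c.G q N) : ℝ) ^ a * ((2 : ℝ) ^ c.w (c.G q N)) ^ a' *
      ((N : ℝ) + 1) * ((2 : ℝ) ^ c.z (c.G q N)) ^ b *
      ((Nat.log 2 (N + 2) : ℝ) + 1) ^ b') := by
  have hq0 : (0 : ℝ) < q := by exact_mod_cast hq
  have h1 : (1 : ℝ) + ((a + a' : ℕ) : ℝ) / q < 2 := by
    have : ((a + a' : ℕ) : ℝ) / q < 1 := by
      rw [div_lt_one hq0]
      exact_mod_cast hx
    linarith
  refine (c.subQ_poly hq a a' b b' h1).mono fun N => ?_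
  rw [Real.rpow_one]

/-! ### Large lengths -/

/-- the number of levels tends to infinity -/
theorem le_L {q : ℕ} (hq : 1 ≤ q) (n₀ : ℕ) : ∃ N₀ : ℕ, ∀ N, N₀ ≤ N → n₀ ≤ c.L (c.G q N) :=
  le_lev c.hB c.hM hq n₀

/-- `g` tends to infinity -/
theorem le_G {q : ℕ} (hq : 1 ≤ q) (g₁ : ℕ) : ∃ N₀ : ℕ, ∀ N, N₀ ≤ N → g₁ ≤ c.G q N := by
  obtain ⟨N₀, h⟩ := c.le_L hq g₁
  exact ⟨N₀, fun N hN => (h N hN).trans (Cst.L_le _)⟩

theorem le_w {q : ℕ} (hq : 1 ≤ q) (w₀ : ℕ) : ∃ N₀ : ℕ, ∀ N, N₀ ≤ N → w₀ ≤ c.w (c.G q N) := by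
  obtain ⟨N₀, h⟩ := c.le_L hq (c.ak * w₀)
  refine ⟨N₀, fun N hN => ?_⟩
  have := h N hN
  unfold w
  exact (Nat.le_div_iff_mul_le c.hak).2 (by rw [Nat.mul_comm]; exact this)

/-- For `a < q` all the overheads `C K ^ a (2 ^ z) ^ b` are at most `N`. -/
theorem K_pow_z_le {q : ℕ} (a b : ℕ) (ha : a < q) (C : ℕ) :
    ∃ N₀ : ℕ, ∀ N, N₀ ≤ N → C * (c.K (c.G q N) ^ a * (2 ^ c.z (c.G q N)) ^ b) ≤ N := by
  have hq : 1 ≤ q := by omega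
  have hq0 : (0 : ℝ) < q := by exact_mod_cast hq
  set x : ℝ := 1 - a / q with hx
  have hxpos : 0 < x := by
    have : (a : ℝ) / q < 1 := by rw [div_lt_one hq0]; exact_mod_cast ha
    linarith
  obtain ⟨D, hD1, hD⟩ := polylog_le (6 * c.e₀ * b) (η := x / 2) (by positivity)
  set E : ℝ := C * (((2 : ℝ) ^ c.e₁ * 8 ^ (6 * c.e₀)) ^ b * D) with hE
  have hE0 : 0 ≤ E := by positivity
  have ht : Filter.Tendsto (fun N : ℕ => E * ((N : ℝ) + 1) ^ (-(x / 2))) Filter.atTop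
      (nhds 0) := by
    have h1 : Filter.Tendsto (fun x' : ℝ => x' ^ (-(x / 2))) Filter.atTop (nhds 0) :=
      tendsto_rpow_neg_atTop (by positivity)
    have h2 : Filter.Tendsto (fun n : ℕ => (n : ℝ) + 1) Filter.atTop Filter.atTop :=
      Filter.tendsto_atTop_add_const_right _ _ tendsto_natCast_atTop_atTop
    have h3 := (h1.comp h2).const_mul E
    rw [mul_zero] at h3
    exact h3
  have h4 := ht.eventually (gt_mem_nhds (show (0 : ℝ) < 1 / 2 by norm_num))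
  obtain ⟨N₀, hN₀⟩ := Filter.eventually_atTop.1 h4
  refine ⟨N₀ + 1, fun N hN => ?_⟩
  have h5 := hN₀ N (by omega)
  have hN : (0 : ℝ) < (N : ℝ) + 1 := by positivity
  have hN1 : (1 : ℝ) ≤ N := by
    have : 1 ≤ N := by omega
    exact_mod_cast this
  have h6 : (c.K (c.G q N) : ℝ) ^ a ≤ ((N : ℝ) + 1) ^ ((a : ℝ) / q) := by
    calc (c.K (c.G q N) : ℝ) ^ a ≤ (((N : ℝ) + 1) ^ (1 / (q : ℝ))) ^ a :=
          pow_le_pow_left₀ (Nat.cast_nonneg _) (c.K_le_rpow hq N) a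
      _ = _ := by
          rw [← Real.rpow_natCast, ← Real.rpow_mul hN.le]; congr 1; ring
  have h7 : ((2 : ℝ) ^ c.z (c.G q N)) ^ b ≤
      ((2 : ℝ) ^ c.e₁ * 8 ^ (6 * c.e₀)) ^ b * (D * ((N : ℝ) + 1) ^ (x / 2)) := by
    calc ((2 : ℝ) ^ c.z (c.G q N)) ^ b ≤
        ((2 ^ c.e₁ * 8 ^ (6 * c.e₀)) * ((Nat.log 2 (N + 2) : ℝ) + 1) ^ (6 * c.e₀)) ^ b :=
          pow_le_pow_left₀ (by positivity) (two_pow_z_le q N) b
      _ = ((2 : ℝ) ^ c.e₁ * 8 ^ (6 * c.e₀)) ^ b *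
          ((Nat.log 2 (N + 2) : ℝ) + 1) ^ (6 * c.e₀ * b) := by
          rw [mul_pow, ← pow_mul ((Nat.log 2 (N + 2) : ℝ) + 1)]
      _ ≤ _ := mul_le_mul_of_nonneg_left (hD N) (by positivity)
  have h8 : ((C * (c.K (c.G q N) ^ a * (2 ^ c.z (c.G q N)) ^ b) : ℕ) : ℝ) ≤ N := by
    push_cast
    calc (C : ℝ) * ((c.K (c.G q N) : ℝ) ^ a * ((2 : ℝ) ^ c.z (c.G q N)) ^ b)
        ≤ C * (((N : ℝ) + 1) ^ ((a : ℝ) / q) *
            (((2 : ℝ) ^ c.e₁ * 8 ^ (6 * c.e₀)) ^ b * (D * ((N : ℝ) + 1) ^ (x / 2)))) := by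
          gcongr
      _ = E * (((N : ℝ) + 1) ^ ((a : ℝ) / q) * ((N : ℝ) + 1) ^ (x / 2)) := by
          rw [hE]; ring
      _ = E * ((N : ℝ) + 1) ^ (-(x / 2)) * ((N : ℝ) + 1) := by
          have e1 : ((N : ℝ) + 1) ^ ((a : ℝ) / q) * ((N : ℝ) + 1) ^ (x / 2) =
              ((N : ℝ) + 1) ^ (-(x / 2)) * ((N : ℝ) + 1) ^ (1 : ℝ) := by
            rw [← Real.rpow_add hN, ← Real.rpow_add hN]
            congr 1
            rw [hx]; ring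
          rw [e1, Real.rpow_one]; ring
      _ ≤ 1 / 2 * ((N : ℝ) + 1) := mul_le_mul_of_nonneg_right h5.le hN.le
      _ ≤ N := by linarith
  exact_mod_cast h8

/-- the rounding of the mesh: `K ℓ2 ≤ 2 N` for large `N` -/
theorem K_mul_ℓ2_le_two {q : ℕ} (hq : 3 ≤ q) :
    ∃ N₀ : ℕ, ∀ N, N₀ ≤ N → c.K (c.G q N) * c.ℓ2 N (c.G q N) ≤ 2 * N := by
  obtain ⟨N₀, h⟩ := c.K_pow_z_le (q := q) 2 1 (by omega) 1
  refine ⟨N₀, fun N hN => ?_⟩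
  have h1 := K_mul_ℓ2_le (c := c) N (c.G q N)
  have h3 := h N hN
  generalize c.G q N = g at *
  have h4 : c.K g * 2 ^ (c.w g + c.z g) ≤ c.K g ^ 2 * (2 ^ c.z g) ^ 1 := by
    rw [pow_add, pow_one, ← Nat.mul_assoc]
    apply Nat.mul_le_mul_right
    rw [pow_two]
    exact Nat.mul_le_mul_left _ (two_pow_w_le g)
  omega

/-- the sum of the widths: `2 ^ w (K w0) ≤ 2 N` for large `N` -/
theorem two_pow_w_mul_le {q : ℕ} (hq : 3 ≤ q) :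
    ∃ N₀ : ℕ, ∀ N, N₀ ≤ N → 2 ^ c.w (c.G q N) * (c.K (c.G q N) * c.w0 N (c.G q N)) ≤ 2 * N := by
  obtain ⟨N₀, h⟩ := c.K_mul_ℓ2_le_two hq
  exact ⟨N₀, fun N hN => by rw [two_pow_w_mul]; exact h N hN⟩

/-- the condition of the base algorithm holds for the length of a row -/
theorem ok_large {q : ℕ} (hq : 12 ≤ q) :
    ∃ N₀ : ℕ, ∀ N, N₀ ≤ N → 2 ^ (10 * (c.lam (c.G q N) + 8)) ≤ c.ℓ2 N (c.G q N) := by
  obtain ⟨N₀, h⟩ := c.K_pow_z_le (q := q) 11 0 (by omega) (2 ^ 80)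
  refine ⟨N₀, fun N hN => ?_⟩
  have h3 := h N hN
  have h1 := lt_K_mul_ℓ2 (c := c) N (c.G q N)
  generalize c.G q N = g at *
  rw [pow_zero, mul_one] at h3
  have hK : 0 < c.K g := Cst.K_pos g
  have h4 : 2 ^ (10 * (c.lam g + 8)) ≤ 2 ^ 80 * c.K g ^ 10 := by
    calc 2 ^ (10 * (c.lam g + 8)) = 2 ^ 80 * (2 ^ c.w g) ^ 10 := by
          unfold lam
          rw [← pow_mul, ← pow_add]; congr 1; ring
      _ ≤ _ := Nat.mul_le_mul_left _ (Nat.pow_le_pow_left (two_pow_w_le g) _)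
  refine Nat.le_of_mul_le_mul_left ?_ hK
  calc c.K g * 2 ^ (10 * (c.lam g + 8)) ≤ c.K g * (2 ^ 80 * c.K g ^ 10) :=
        Nat.mul_le_mul_left _ h4
    _ = 2 ^ 80 * c.K g ^ 11 := by ring
    _ ≤ N := h3
    _ ≤ _ := h1.le

/-- the number of rows times a constant is at most `N / 2 ^ w` -/
theorem K_small {q : ℕ} (hq : 3 ≤ q) (C : ℕ) :
    ∃ N₀ : ℕ, ∀ N, N₀ ≤ N → C * (2 ^ c.w (c.G q N) * c.K (c.G q N)) ≤ N := by
  obtain ⟨N₀, h⟩ := c.K_pow_z_le (q := q) 2 0 (by omega) C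
  refine ⟨N₀, fun N hN => le_trans (Nat.mul_le_mul_left _ ?_) (h N hN)⟩
  rw [pow_zero, mul_one, pow_two]
  exact Nat.mul_le_mul_right _ (two_pow_w_le _)

end Cst2

end Vale.Agent.P315.H608
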