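import Vale.Agent.P315.H527.ParamsPT
import Vale.Agent.P315.H95.Label

/-!
# Milestone 2: the parameters

Functions of `n = |x| + |y|` and of `g` = the number of levels before rounding, as in milestone 1
(`Cst`). `L g` levels, `K g = M ^ L` rows, `M = 2 ^ bm`; `w = L / ak`, `z = e₀ 2 ^ S + e₁`, mesh `μ2`,
half width `w0 = 2 ^ z μ2` of the boxes of class `0` of a row, row length
`ℓ2 = 2 ^ w w0 = 2 ℓh`, classes of the rows `≤ Kc = w + c2` = class of the root, positions in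
`[0, B2]`, start `c0 = K ℓh` of the root. Base algorithm: windows `2 ^ se`, error `2 ^ (se - lam)`,
`2 ^ kap` instances, table `K × nS × nE`.
-/

set_option autoImplicit false

namespace Vale.Agent.P315.H608

open Vale.Agent.Lib.PolyTime Vale.Agent.P315.H809 Vale.Agent.P315.H527

/-- The constants of milestone 2 (they depend on `ε` only). -/
structure Cst2 extends Cst where
  /-- `w = L / ak` -/
  ak : ℕ
  /-- `z = e₀ 2 ^ S + e₁` -/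
  e₀ : ℕ
  /-- `z = e₀ 2 ^ S + e₁` -/
  e₁ : ℕ
  /-- `Kc = w + c2` -/
  c2 : ℕ
  /-- `M = 2 ^ bm` -/
  bm : ℕ
  /-- constant of the band -/
  C1 : ℕ
  hak : 1 ≤ ak
  he₁ : 1 ≤ e₁
  hbm : M = 2 ^ bm

namespace Cst2

variable (c : Cst2)

/-- logarithm of `ℓ2 / w0` -/
def w (g : ℕ) : ℕ := c.L g / c.ak

/-- logarithm of `w0 / μ` -/
def z (g : ℕ) : ℕ := c.e₀ * 2 ^ c.S g + c.e₁

/-- mesh -/
def μ2 (n g : ℕ) : ℕ := n / (c.K g * 2 ^ (c.w g + c.z g)) + 1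

/-- half width of the boxes of class `0` of a row -/
def w0 (n g : ℕ) : ℕ := 2 ^ c.z g * c.μ2 n g

/-- length of a row -/
def ℓ2 (n g : ℕ) : ℕ := 2 ^ (c.w g + c.z g) * c.μ2 n g

/-- half the length of a row -/
def ℓh (n g : ℕ) : ℕ := 2 ^ (c.w g + c.z g - 1) * c.μ2 n g

/-- greatest class of a row, class of the root -/
def Kc (g : ℕ) : ℕ := c.w g + c.c2

/-- start of the root -/
def c0 (n g : ℕ) : ℕ := c.K g * c.ℓh n g

/-- bound for the positions -/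
def B2 (n g : ℕ) : ℕ := 2 * (2 ^ c.Kc g * (c.w0 n g * c.K g))

/-- number of starts in a row -/
def nS (n g : ℕ) : ℕ := c.B2 n g / c.μ2 n g + 1

/-- number of ends of a start -/
def nE (n g : ℕ) : ℕ := c.ℓ2 n g / c.μ2 n g + 1

/-- base of the code of the queries -/
def D2 (g : ℕ) : ℕ := 2 ^ (c.w g + c.z g + c.c2 + 4) * c.K g

/-- number of rounds (one start of one cell in each) -/
def Q2 (g : ℕ) : ℕ := c.Q g * 2 ^ (c.Kc g + c.z g + 5)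

/-- logarithm of the inverse of the relative error of the base algorithm -/
def lam (g : ℕ) : ℕ := c.w g

/-- logarithm of the number of rows -/
def kap (g : ℕ) : ℕ := c.bm * c.L g

/-- logarithm of the length of a row (at least `10 (lam + 8)`) -/
def se (n g : ℕ) : ℕ := max (Nat.log 2 (c.ℓ2 n g)) (10 * (c.lam g + 8))

/-- logarithm of the modulus of the seeds -/
def lmd (n g : ℕ) : ℕ := c.kc + c.mt * 2 ^ c.S g + Nat.log 2 (c.ℓ2 n g) + 1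

/-- modulus of the seeds -/
def md (n g : ℕ) : ℕ := 2 ^ c.lmd n g

/-- width of the band: everything for `n < N₀` -/
def kb (N₀ n g : ℕ) : ℕ := if n < N₀ then n else c.C1 * (n / 2 ^ c.w g + 1)

/-- number of entries of the table -/
def NV (n g : ℕ) : ℕ := c.K g * c.nS n g * c.nE n g

/-- number of seeds of the strategy -/
def Nu2 (g : ℕ) : ℕ := (c.L g + 1) * c.M + (c.L g + 1) * ((c.S g + 1) * c.Cn g)

variable {c}

/-! ### Equalities and divisibility -/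

theorem K_eq (g : ℕ) : c.K g = 2 ^ c.kap g := by
  show c.M ^ c.L g = _
  unfold kap
  rw [c.hbm, ← pow_mul]

theorem K_eq' (g : ℕ) : c.K g = (2 ^ c.bm) ^ c.L g := by
  show c.M ^ c.L g = _
  rw [c.hbm]

theorem ak_mul_w_le (g : ℕ) : c.ak * c.w g ≤ c.L g := Nat.mul_div_le _ _

theorem w_le (g : ℕ) : c.w g ≤ c.L g := Nat.div_le_self _ _

theorem two_pow_w_le (g : ℕ) : 2 ^ c.w g ≤ c.K g :=
  (Nat.pow_le_pow_right (by norm_num) (w_le g)).trans (Nat.pow_le_pow_left c.hM _)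

theorem two_pow_z_eq (g : ℕ) : 2 ^ c.z g = 2 ^ c.e₁ * 2 ^ (c.e₀ * 2 ^ c.S g) := by
  unfold z; rw [pow_add, Nat.mul_comm]

theorem μ2_pos (n g : ℕ) : 1 ≤ c.μ2 n g := Nat.le_add_left _ _

theorem w0_pos (n g : ℕ) : 1 ≤ c.w0 n g := Nat.mul_pos Nat.one_le_two_pow (μ2_pos n g)

theorem ℓ2_pos (n g : ℕ) : 1 ≤ c.ℓ2 n g := Nat.mul_pos Nat.one_le_two_pow (μ2_pos n g)

theorem ℓh_pos (n g : ℕ) : 1 ≤ c.ℓh n g := Nat.mul_pos Nat.one_le_two_pow (μ2_pos n g)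

/-- the row is `2 ^ w` wide -/
theorem ℓ2_eq (n g : ℕ) : c.ℓ2 n g = 2 ^ c.w g * c.w0 n g := by
  unfold ℓ2 w0; rw [pow_add, Nat.mul_assoc]

/-- `ℓ2 = 2 ℓh` -/
theorem ℓ2_eq_two_mul (n g : ℕ) : c.ℓ2 n g = 2 * c.ℓh n g := by
  have h : c.w g + c.z g = (c.w g + c.z g - 1) + 1 := by
    have := c.he₁
    unfold z; omega
  unfold ℓ2 ℓh
  rw [h, pow_succ]
  simp only [Nat.add_sub_cancel]
  ring

theorem ℓ2_div_two (n g : ℕ) : c.ℓ2 n g / 2 = c.ℓh n g := by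
  rw [ℓ2_eq_two_mul, Nat.mul_div_cancel_left _ (by norm_num)]

theorem μ2_dvd_w0 (n g : ℕ) : c.μ2 n g ∣ c.w0 n g := Dvd.intro_left _ rfl

theorem w0_dvd_ℓ2 (n g : ℕ) : c.w0 n g ∣ c.ℓ2 n g := by rw [ℓ2_eq]; exact Dvd.intro_left _ rfl

theorem μ2_dvd_ℓ2 (n g : ℕ) : c.μ2 n g ∣ c.ℓ2 n g := Dvd.intro_left _ rfl

theorem μ2_dvd_ℓh (n g : ℕ) : c.μ2 n g ∣ c.ℓh n g := Dvd.intro_left _ rfl

theorem μ2_dvd_c0 (n g : ℕ) : c.μ2 n g ∣ c.c0 n g := (μ2_dvd_ℓh n g).mul_left _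

theorem two_dvd_ℓ2 (n g : ℕ) : 2 ∣ c.ℓ2 n g := ⟨_, ℓ2_eq_two_mul n g⟩

theorem ez_mul_μ2_dvd_w0 (n g : ℕ) : 2 ^ (c.e₀ * 2 ^ c.S g) * c.μ2 n g ∣ c.w0 n g :=
  ⟨2 ^ c.e₁, by unfold w0; rw [two_pow_z_eq]; ring⟩

theorem μ2_dvd_B2 (n g : ℕ) : c.μ2 n g ∣ c.B2 n g :=
  (((μ2_dvd_w0 n g).mul_right _).mul_left _).mul_left _

theorem ℓ2_div_μ2 (n g : ℕ) : c.ℓ2 n g / c.μ2 n g = 2 ^ (c.w g + c.z g) :=
  Nat.mul_div_cancel _ (μ2_pos n g)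

theorem w0_div_μ2 (n g : ℕ) : c.w0 n g / c.μ2 n g = 2 ^ c.z g :=
  Nat.mul_div_cancel _ (μ2_pos n g)

theorem nE_eq (n g : ℕ) : c.nE n g = 2 ^ (c.w g + c.z g) + 1 := by unfold nE; rw [ℓ2_div_μ2]

/-- `2 ^ Kc w0 = 2 ^ c2 ℓ2` -/
theorem two_pow_Kc_mul_w0 (n g : ℕ) : 2 ^ c.Kc g * c.w0 n g = 2 ^ c.c2 * c.ℓ2 n g := by
  unfold Kc
  rw [ℓ2_eq, pow_add]; ring

theorem B2_eq (n g : ℕ) : c.B2 n g = 2 ^ (c.c2 + 1) * (c.K g * c.ℓ2 n g) := by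
  have h := two_pow_Kc_mul_w0 (c := c) n g
  unfold B2
  calc 2 * (2 ^ c.Kc g * (c.w0 n g * c.K g)) = 2 * c.K g * (2 ^ c.Kc g * c.w0 n g) := by ring
    _ = 2 * c.K g * (2 ^ c.c2 * c.ℓ2 n g) := by rw [h]
    _ = _ := by rw [pow_succ]; ring

theorem B2_eq_wd (n g : ℕ) : c.B2 n g = 2 * H95.wd c.bm (c.w0 n g) (c.L g) (c.Kc g) := by
  unfold B2 H95.wd
  rw [K_eq']

theorem nS_eq (n g : ℕ) : c.nS n g = 2 ^ (c.Kc g + c.z g + 1) * c.K g + 1 := by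
  unfold nS
  have h : c.B2 n g = (2 ^ (c.Kc g + c.z g + 1) * c.K g) * c.μ2 n g := by
    unfold B2 w0
    rw [pow_succ, pow_add]; ring
  rw [h, Nat.mul_div_cancel _ (μ2_pos n g)]

theorem B2_div_μ2_lt_nS (n g : ℕ) : c.B2 n g / c.μ2 n g < c.nS n g := Nat.lt_succ_self _

/-- the code base is large enough -/
theorem D2_ge (n g : ℕ) :
    c.B2 n g / c.μ2 n g + 1 + c.K g * 2 ^ (c.w g + c.z g) ≤ c.D2 g := by
  have h : c.B2 n g / c.μ2 n g + 1 = 2 ^ (c.Kc g + c.z g + 1) * c.K g + 1 := nS_eq n g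
  rw [h]
  unfold D2 Kc
  have e1 : 2 ^ (c.w g + c.c2 + c.z g + 1) * c.K g = 2 * (2 ^ (c.w g + c.z g + c.c2) * c.K g) := by
    rw [show c.w g + c.c2 + c.z g + 1 = (c.w g + c.z g + c.c2) + 1 by ring, pow_succ]; ring
  have e2 : 2 ^ (c.w g + c.z g + c.c2 + 4) * c.K g = 16 * (2 ^ (c.w g + c.z g + c.c2) * c.K g) := by
    rw [pow_add _ _ 4]; ring
  have e3 : c.K g * 2 ^ (c.w g + c.z g) ≤ 2 ^ (c.w g + c.z g + c.c2) * c.K g := by
    rw [Nat.mul_comm]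
    exact Nat.mul_le_mul_right _ (Nat.pow_le_pow_right (by norm_num) (by omega))
  have e4 : 1 ≤ 2 ^ (c.w g + c.z g + c.c2) * c.K g :=
    Nat.mul_pos Nat.one_le_two_pow (Cst.K_pos g)
  rw [e1, e2]
  omega

/-! ### Inequalities -/

/-- the mesh is much smaller than the width -/
theorem e₁_mul_μ2_le (n g : ℕ) : 2 ^ c.e₁ * c.μ2 n g ≤ c.w0 n g := by
  unfold w0
  rw [two_pow_z_eq]
  have : 1 ≤ 2 ^ (c.e₀ * 2 ^ c.S g) := Nat.one_le_two_pow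
  calc 2 ^ c.e₁ * c.μ2 n g = 2 ^ c.e₁ * 1 * c.μ2 n g := by ring
    _ ≤ _ := Nat.mul_le_mul_right _ (Nat.mul_le_mul_left _ this)

theorem μ2_le_w0 (n g : ℕ) : c.μ2 n g ≤ c.w0 n g :=
  Nat.le_mul_of_pos_left _ Nat.one_le_two_pow

theorem w0_le_ℓ2 (n g : ℕ) : c.w0 n g ≤ c.ℓ2 n g := by
  rw [ℓ2_eq]; exact Nat.le_mul_of_pos_left _ Nat.one_le_two_pow

theorem μ2_le_ℓ2 (n g : ℕ) : c.μ2 n g ≤ c.ℓ2 n g :=
  Nat.le_mul_of_pos_left _ Nat.one_le_two_pow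

theorem two_pow_wz_le_ℓ2 (n g : ℕ) : 2 ^ (c.w g + c.z g) ≤ c.ℓ2 n g :=
  Nat.le_mul_of_pos_right _ (μ2_pos n g)

/-- the classes of the rows are large enough -/
theorem c1_mul_ℓ2_le {c1 : ℕ} (h : c1 + 1 ≤ 2 ^ c.c2) (n g : ℕ) :
    c1 * c.ℓ2 n g + c.w0 n g ≤ 2 ^ c.Kc g * c.w0 n g := by
  rw [two_pow_Kc_mul_w0]
  have h1 := w0_le_ℓ2 (c := c) n g
  calc c1 * c.ℓ2 n g + c.w0 n g ≤ (c1 + 1) * c.ℓ2 n g := by
        rw [Nat.add_mul]; omega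
    _ ≤ _ := Nat.mul_le_mul_right _ h

/-- the rows cover the time `n` -/
theorem lt_K_mul_ℓ2 (n g : ℕ) : n < c.K g * c.ℓ2 n g := by
  have h : 0 < c.K g * 2 ^ (c.w g + c.z g) := Nat.mul_pos (Cst.K_pos g) Nat.one_le_two_pow
  have := Nat.lt_mul_div_succ n h
  unfold ℓ2 μ2
  rw [← Nat.mul_assoc]
  exact this

theorem K_mul_ℓ2_le (n g : ℕ) : c.K g * c.ℓ2 n g ≤ n + c.K g * 2 ^ (c.w g + c.z g) := by
  unfold ℓ2 μ2
  rw [← Nat.mul_assoc, Nat.mul_add, Nat.mul_one]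
  exact Nat.add_le_add_right (Nat.mul_div_le _ _) _

theorem K_mul_ℓ2_le_B2 (n g : ℕ) : c.K g * c.ℓ2 n g ≤ c.B2 n g := by
  rw [B2_eq]
  exact Nat.le_mul_of_pos_left _ (by positivity)

theorem two_mul_wd_le_B2 (n g : ℕ) :
    2 * H95.wd c.bm (c.w0 n g) (c.L g) (c.Kc g) ≤ c.B2 n g := (B2_eq_wd n g).ge

theorem c0_le_B2 (n g : ℕ) : c.c0 n g ≤ c.B2 n g := by
  refine le_trans ?_ (K_mul_ℓ2_le_B2 n g)
  unfold c0
  rw [ℓ2_eq_two_mul]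
  exact Nat.mul_le_mul_left _ (by omega)

theorem two_pow_w_mul (n g : ℕ) : 2 ^ c.w g * (c.K g * c.w0 n g) = c.K g * c.ℓ2 n g := by
  rw [ℓ2_eq]; ring

theorem K_le_two_pow_kap (g : ℕ) : c.K g ≤ 2 ^ c.kap g := (K_eq g).le

/-! ### The base algorithm -/

theorem ok_se (n g : ℕ) : 10 * (c.lam g + 8) ≤ c.se n g := le_max_right _ _

theorem ℓ2_lt_se (n g : ℕ) : c.ℓ2 n g < 2 ^ (c.se n g + 1) := by
  refine lt_of_lt_of_le (Nat.lt_pow_succ_log_self (b := 2) (by norm_num) _) ?_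
  exact Nat.pow_le_pow_right (by norm_num) (Nat.succ_le_succ (le_max_left _ _))

theorem lam_le_log (n g : ℕ) : c.lam g ≤ Nat.log 2 (c.ℓ2 n g) := by
  apply Nat.le_log_of_pow_le (by norm_num)
  refine le_trans ?_ (two_pow_wz_le_ℓ2 n g)
  exact Nat.pow_le_pow_right (by norm_num) (Nat.le_add_right _ _)

theorem se_eq {n g : ℕ} (h : 2 ^ (10 * (c.lam g + 8)) ≤ c.ℓ2 n g) :
    c.se n g = Nat.log 2 (c.ℓ2 n g) :=
  max_eq_left (Nat.le_log_of_pow_le (by norm_num) h)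

theorem two_pow_se_le {n g : ℕ} (h : 2 ^ (10 * (c.lam g + 8)) ≤ c.ℓ2 n g) :
    2 ^ c.se n g ≤ c.ℓ2 n g := by
  rw [se_eq h]
  exact Nat.pow_log_le_self 2 (by have := ℓ2_pos (c := c) n g; omega)

/-- the error of the base algorithm is at most the width -/
theorem two_pow_se_sub_le {n g : ℕ} (h : 2 ^ (10 * (c.lam g + 8)) ≤ c.ℓ2 n g) :
    2 ^ (c.se n g - c.lam g) ≤ c.w0 n g := by
  have h1 := two_pow_se_le h
  have h2 : c.lam g ≤ c.se n g := by have := ok_se (c := c) n g; omega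
  have h3 : 0 < 2 ^ c.w g := by positivity
  refine Nat.le_of_mul_le_mul_left ?_ h3
  rw [← ℓ2_eq]
  calc 2 ^ c.w g * 2 ^ (c.se n g - c.lam g) = 2 ^ c.se n g := by
        rw [← pow_add]; congr 1; unfold lam at *; omega
    _ ≤ _ := h1

/-! ### The modulus of the seeds -/

theorem md_pos (n g : ℕ) : 1 ≤ c.md n g := Nat.one_le_two_pow

theorem two_pow_dvd_md {n g a : ℕ} (h : a ≤ c.lmd n g) : 2 ^ a ∣ c.md n g := Nat.pow_dvd_pow 2 h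

theorem kc_le_lmd (n g : ℕ) : c.kc ≤ c.lmd n g := by unfold lmd; omega

theorem mt_le_lmd (n g : ℕ) : c.mt * 2 ^ c.S g ≤ c.lmd n g := by unfold lmd; omega

theorem log_le_lmd (n g : ℕ) : Nat.log 2 (c.ℓ2 n g) + 1 ≤ c.lmd n g := by unfold lmd; omega

/-! ### The band -/

theorem kb_of_lt {N₀ n g : ℕ} (h : n < N₀) : c.kb N₀ n g = n := if_pos h

theorem kb_of_le {N₀ n g : ℕ} (h : N₀ ≤ n) : c.kb N₀ n g = c.C1 * (n / 2 ^ c.w g + 1) :=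
  if_neg (by omega)

/-- outside of the band, `N₀ ≤ n`, the distance is large: `C1 n ≤ 2 ^ w d` -/
theorem le_of_kb_lt {N₀ n g d : ℕ} (hd : d ≤ n) (h : c.kb N₀ n g < d) :
    N₀ ≤ n ∧ c.C1 * n ≤ 2 ^ c.w g * d := by
  have h1 : N₀ ≤ n := by
    by_contra hc
    rw [kb_of_lt (by omega)] at h
    omega
  refine ⟨h1, ?_⟩
  rw [kb_of_le h1] at h
  have h2 : n ≤ 2 ^ c.w g * (n / 2 ^ c.w g + 1) :=
    (Nat.lt_mul_div_succ n (by positivity)).le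
  calc c.C1 * n ≤ c.C1 * (2 ^ c.w g * (n / 2 ^ c.w g + 1)) := Nat.mul_le_mul_left _ h2
    _ = 2 ^ c.w g * (c.C1 * (n / 2 ^ c.w g + 1)) := by ring
    _ ≤ 2 ^ c.w g * d := Nat.mul_le_mul_left _ h.le

/-! ### For large `g` -/

/-- All hypotheses on the parameters in the query theorem of milestone 2 (`B = 2 ^ m`). -/
theorem exists_hyps2 (c : Cst2) {m : ℕ} (hBm : c.B = 2 ^ m) (a₀ n₀ : ℕ) (hak : 2 * a₀ ≤ c.ak) :
    ∃ g₁ : ℕ, ∀ g, g₁ ≤ g → ∀ n,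
      n₀ ≤ c.L g ∧ 2 ^ c.S g ∣ c.L g ∧ (c.L g + 2) ^ 3 ≤ (2 ^ m) ^ 2 ^ c.S g ∧
      2 ^ c.S g ≤ 6 * (Nat.log 2 (c.L g + 2) + 2) ∧ 0 < c.μ2 n g ∧ 0 < c.w0 n g ∧
      2 ∣ c.ℓ2 n g ∧ 2 ^ (c.e₀ * 2 ^ c.S g) * c.μ2 n g ∣ c.w0 n g ∧ c.w0 n g ∣ c.ℓ2 n g ∧
      a₀ * (c.Kc g + 1) ≤ c.L g ∧ c.Kc g ≤ c.Kc g + 3 ∧
      2 * H95.wd c.bm (c.w0 n g) (c.L g) (c.Kc g) ≤ c.B2 n g := by
  refine ⟨2 * (max (n₀ + 1) (2 * a₀ * (c.c2 + 1)) + 1) + 46, fun g hg n => ?_⟩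
  have h1 := Cst.g_le (c := c.toCst) g
  have h2 : max (n₀ + 1) (2 * a₀ * (c.c2 + 1)) ≤ c.L g := by omega
  have h3 : n₀ + 1 ≤ c.L g := (le_max_left _ _).trans h2
  have h4 : 2 * a₀ * (c.c2 + 1) ≤ c.L g := (le_max_right _ _).trans h2
  refine ⟨by omega, Cst.two_pow_S_dvd g, hBm ▸ Cst.L_cube g, Cst.two_pow_S_le g (by omega),
    μ2_pos n g, w0_pos n g, two_dvd_ℓ2 n g, ez_mul_μ2_dvd_w0 n g, w0_dvd_ℓ2 n g, ?_, by omega,
    two_mul_wd_le_B2 n g⟩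
  have h5 : 2 * a₀ * c.w g ≤ c.L g :=
    (Nat.mul_le_mul_right _ hak).trans (ak_mul_w_le g)
  unfold Kc
  have h6 : 2 * (a₀ * (c.w g + c.c2 + 1)) = 2 * a₀ * c.w g + 2 * a₀ * (c.c2 + 1) := by ring
  omega

/-! ### Polynomial time -/

section PT

variable {A : Set Word} {α : Type*} [Enc α] {f g : α → ℕ}

variable (c)

theorem PT_w (hg : PT A g) : PT A (fun a => c.w (g a)) :=
  PT.div (c.PT_L hg) (PT.const c.ak)

theorem PBd_w (hb : PBd g) : PBd (fun a => c.w (g a)) :=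
  (c.PBd_L hb).mono fun _ => w_le _

theorem PT_two_pow_w (hg : PT A g) (hb : PBd g) : PT A (fun a => 2 ^ c.w (g a)) :=
  PT.pow (PT.const 2) (c.PT_w hg) (c.PBd_w hb)

theorem PT_z (hg : PT A g) : PT A (fun a => c.z (g a)) :=
  PT.add (PT.mul (PT.const c.e₀) (c.PT_powS hg)) (PT.const c.e₁)

theorem PBd_z (hg : PT A g) : PBd (fun a => c.z (g a)) :=
  ((PBd.const c.e₀).mul (c.PBd_powS hg)).add (PBd.const c.e₁)

theorem PT_two_pow_z (hg : PT A g) : PT A (fun a => 2 ^ c.z (g a)) :=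
  PT.pow (PT.const 2) (c.PT_z hg) (c.PBd_z hg)

theorem PT_two_pow_wz (hg : PT A g) (hb : PBd g) : PT A (fun a => 2 ^ (c.w (g a) + c.z (g a))) :=
  PT.pow (PT.const 2) (PT.add (c.PT_w hg) (c.PT_z hg)) ((c.PBd_w hb).add (c.PBd_z hg))

theorem PT_μ2 (hf : PT A f) (hg : PT A g) (hb : PBd g) : PT A (fun a => c.μ2 (f a) (g a)) :=
  PT.add (PT.div hf (PT.mul (c.PT_K hg hb) (c.PT_two_pow_wz hg hb))) (PT.const 1)

theorem PT_w0 (hf : PT A f) (hg : PT A g) (hb : PBd g) : PT A (fun a => c.w0 (f a) (g a)) :=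
  PT.mul (c.PT_two_pow_z hg) (c.PT_μ2 hf hg hb)

theorem PT_ℓ2 (hf : PT A f) (hg : PT A g) (hb : PBd g) : PT A (fun a => c.ℓ2 (f a) (g a)) :=
  PT.mul (c.PT_two_pow_wz hg hb) (c.PT_μ2 hf hg hb)

theorem PT_ℓh (hf : PT A f) (hg : PT A g) (hb : PBd g) : PT A (fun a => c.ℓh (f a) (g a)) :=
  (PT.div (c.PT_ℓ2 hf hg hb) (PT.const 2)).congr fun _ => ℓ2_div_two _ _

theorem PT_Kc (hg : PT A g) : PT A (fun a => c.Kc (g a)) :=
  PT.add (c.PT_w hg) (PT.const c.c2)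

theorem PBd_Kc (hb : PBd g) : PBd (fun a => c.Kc (g a)) :=
  (c.PBd_w hb).add (PBd.const c.c2)

theorem PT_c0 (hf : PT A f) (hg : PT A g) (hb : PBd g) : PT A (fun a => c.c0 (f a) (g a)) :=
  PT.mul (c.PT_K hg hb) (c.PT_ℓh hf hg hb)

theorem PT_B2 (hf : PT A f) (hg : PT A g) (hb : PBd g) : PT A (fun a => c.B2 (f a) (g a)) :=
  PT.mul (PT.const 2) (PT.mul (PT.pow (PT.const 2) (c.PT_Kc hg) (c.PBd_Kc hb))
    (PT.mul (c.PT_w0 hf hg hb) (c.PT_K hg hb)))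

theorem PT_nS (hf : PT A f) (hg : PT A g) (hb : PBd g) : PT A (fun a => c.nS (f a) (g a)) :=
  PT.add (PT.div (c.PT_B2 hf hg hb) (c.PT_μ2 hf hg hb)) (PT.const 1)

theorem PT_nE (hf : PT A f) (hg : PT A g) (hb : PBd g) : PT A (fun a => c.nE (f a) (g a)) :=
  PT.add (PT.div (c.PT_ℓ2 hf hg hb) (c.PT_μ2 hf hg hb)) (PT.const 1)

theorem PT_D2 (hg : PT A g) (hb : PBd g) : PT A (fun a => c.D2 (g a)) :=
  PT.mul (PT.pow (PT.const 2) (PT.add (PT.add (PT.add (c.PT_w hg) (c.PT_z hg)) (PT.const c.c2))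
    (PT.const 4)) ((((c.PBd_w hb).add (c.PBd_z hg)).add (PBd.const c.c2)).add (PBd.const 4)))
    (c.PT_K hg hb)

theorem PT_Q2 (hg : PT A g) (hb : PBd g) : PT A (fun a => c.Q2 (g a)) :=
  PT.mul (c.PT_Q hg hb) (PT.pow (PT.const 2) (PT.add (PT.add (c.PT_Kc hg) (c.PT_z hg))
    (PT.const 5)) (((c.PBd_Kc hb).add (c.PBd_z hg)).add (PBd.const 5)))

theorem PT_lam (hg : PT A g) : PT A (fun a => c.lam (g a)) := c.PT_w hg

theorem PBd_lam (hb : PBd g) : PBd (fun a => c.lam (g a)) := c.PBd_w hb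

theorem PT_kap (hg : PT A g) : PT A (fun a => c.kap (g a)) :=
  PT.mul (PT.const c.bm) (c.PT_L hg)

theorem PBd_kap (hb : PBd g) : PBd (fun a => c.kap (g a)) :=
  (PBd.const c.bm).mul (c.PBd_L hb)

theorem nat_max_eq (a b : ℕ) : max a b = if a ≤ b then b else a := by
  split_ifs with h
  · exact max_eq_right h
  · exact max_eq_left (by omega)

theorem PT_se (hf : PT A f) (hg : PT A g) (hb : PBd g) : PT A (fun a => c.se (f a) (g a)) := by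
  have h1 : PT A (fun a => Nat.log 2 (c.ℓ2 (f a) (g a))) := PT_log (M := 2) le_rfl (c.PT_ℓ2 hf hg hb)
  have h2 : PT A (fun a => 10 * (c.lam (g a) + 8)) :=
    PT.mul (PT.const 10) (PT.add (c.PT_lam hg) (PT.const 8))
  refine (PT.ite (PT.le h1 h2) h2 h1).congr fun a => ?_
  unfold se
  exact (nat_max_eq _ _).symm

theorem PBd_se (hf : PT A f) (hg : PT A g) (hb : PBd g) : PBd (fun a => c.se (f a) (g a)) := by
  refine ((PBd_log 2 (c.PT_ℓ2 hf hg hb)).add ((PBd.const 10).mul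
    ((c.PBd_lam hb).add (PBd.const 8)))).mono fun a => ?_
  unfold se
  exact max_le (Nat.le_add_right _ _) (Nat.le_add_left _ _)

theorem PT_lmd (hf : PT A f) (hg : PT A g) (hb : PBd g) : PT A (fun a => c.lmd (f a) (g a)) :=
  PT.add (PT.add (PT.add (PT.const c.kc) (PT.mul (PT.const c.mt) (c.PT_powS hg)))
    (PT_log (M := 2) le_rfl (c.PT_ℓ2 hf hg hb))) (PT.const 1)

theorem PBd_lmd (hf : PT A f) (hg : PT A g) (hb : PBd g) : PBd (fun a => c.lmd (f a) (g a)) :=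
  (((PBd.const c.kc).add ((PBd.const c.mt).mul (c.PBd_powS hg))).add
    (PBd_log 2 (c.PT_ℓ2 hf hg hb))).add (PBd.const 1)

theorem PT_md (hf : PT A f) (hg : PT A g) (hb : PBd g) : PT A (fun a => c.md (f a) (g a)) :=
  PT.pow (PT.const 2) (c.PT_lmd hf hg hb) (c.PBd_lmd hf hg hb)

theorem PT_kb (N₀ : ℕ) (hf : PT A f) (hg : PT A g) (hb : PBd g) :
    PT A (fun a => c.kb N₀ (f a) (g a)) :=
  PT.ite (PT.lt hf (PT.const N₀)) hf
    (PT.mul (PT.const c.C1) (PT.add (PT.div hf (c.PT_two_pow_w hg hb)) (PT.const 1)))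

theorem PT_NV (hf : PT A f) (hg : PT A g) (hb : PBd g) : PT A (fun a => c.NV (f a) (g a)) :=
  PT.mul (PT.mul (c.PT_K hg hb) (c.PT_nS hf hg hb)) (c.PT_nE hf hg hb)

theorem PT_Nu2 (hg : PT A g) : PT A (fun a => c.Nu2 (g a)) :=
  PT.add (PT.mul (PT.add (c.PT_L hg) (PT.const 1)) (PT.const c.M))
    (PT.mul (PT.add (c.PT_L hg) (PT.const 1)) (PT.mul (PT.add (c.PT_S hg) (PT.const 1))
      (c.PT_Cn hg)))

end PT

end Cst2

end Vale.Agent.P315.H608
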