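import Vale.Agent.P315.H608.Cost2
import Vale.Agent.P315.H873.MulF

/-!
# Milestone 2: the running time of the main program over the lengths of the two strings
-/

set_option autoImplicit false

namespace Vale.Agent.P315.H608

open Vale.Agent.P315 Vale.Agent.P315.H809 Vale.Agent.P315.H527 Vale.Agent.P315.H873
open Vale.Agent.P315.RAM (len2)

theorem size_le_lg (N : ℕ) : Nat.size (N + 2) ≤ Cst.lg N := by
  rw [Nat.size_le]
  exact Nat.lt_pow_succ_log_self (by norm_num) _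

namespace Cst2

theorem mulF_cost (c : Cst2) (q cb N₀ k₁ k₂ S : ℕ) (p : ℕ × ℕ) :
    (mulF c q cb N₀).cost k₁ k₂ p S (H933.tpre (GF c q) p) =
      c.costC q k₁ k₂ N₀ 12 (sl p) (cb * Nat.size (sl p + 2)) S := rfl

/-- **The running time**: for `q ≥ q₀` and states of size at most
`CS (K 2 ^ w 2 ^ z log N) ^ aS`, the time is at most `C (n + 1) ^ (2 - δ)`, `n` = length of the
longer string. -/
theorem cost_final (c : Cst2) (hak : 3 * c.h ≤ c.ak) (k₂ aS : ℕ) : ∃ q₀ : ℕ, 1 ≤ q₀ ∧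
    ∀ q, q₀ ≤ q → ∀ cb k₁ CS N₀ n0 : ℕ, ∃ δ C : ℝ, 0 < δ ∧ δ ≤ 1 ∧ 0 ≤ C ∧
      (∀ (x y : List ℕ) (S : ℕ),
        S ≤ CS * (c.K (gp c q (len2 x y)) * 2 ^ c.w (gp c q (len2 x y)) *
          2 ^ c.z (gp c q (len2 x y)) * Nat.size (sl (len2 x y) + 2)) ^ aS →
        (((mulF c q cb N₀).cost k₁ k₂ (len2 x y) S (H933.tpre (GF c q) (len2 x y)) + 8 : ℕ) : ℝ) ≤
          C * (((max x.length y.length : ℕ) : ℝ) + 1) ^ (2 - δ)) ∧
      (∀ n : ℕ, n < n0 → ((360 * ((n0 + 1) * (2 * n0 + 1)) + 10 : ℕ) : ℝ) ≤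
        C * ((n : ℝ) + 1) ^ (2 - δ)) := by
  obtain ⟨Cz, az, hz⟩ := c.PK_z
  obtain ⟨q₀, hq₀, h⟩ := c.cost_le hak k₂ ((2 + az) * aS)
  refine ⟨q₀, hq₀, fun q hq cb k₁ CS N₀ n0 => ?_⟩
  obtain ⟨δ, C, hδ, hδ1, hC, hcost⟩ := h q hq k₁ N₀ 12 cb (CS * Cz ^ aS) aS
  have hb : ∀ n : ℕ, (1 : ℝ) ≤ ((n : ℝ) + 1) ^ (2 - δ) := fun n =>
    Real.one_le_rpow (one_le_base n) (by linarith)
  refine ⟨δ, C + ((360 * ((n0 + 1) * (2 * n0 + 1)) + 10 : ℕ) : ℝ), hδ, hδ1, by positivity,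
    fun x y S hS => ?_, fun n _ => ?_⟩
  · rw [mulF_cost]
    have h1 : c.K (gp c q (len2 x y)) * 2 ^ c.w (gp c q (len2 x y)) *
        2 ^ c.z (gp c q (len2 x y)) * Nat.size (sl (len2 x y) + 2) ≤
        Cz * c.K (gp c q (len2 x y)) ^ (2 + az) * Cst.lg (sl (len2 x y)) := by
      refine Nat.mul_le_mul ?_ (size_le_lg _)
      calc c.K (gp c q (len2 x y)) * 2 ^ c.w (gp c q (len2 x y)) *
            2 ^ c.z (gp c q (len2 x y))
          ≤ c.K (gp c q (len2 x y)) * c.K (gp c q (len2 x y)) *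
            (Cz * c.K (gp c q (len2 x y)) ^ az) :=
            Nat.mul_le_mul (Nat.mul_le_mul_left _ (two_pow_w_le _)) (hz _)
        _ = _ := by rw [pow_add]; ring
    have h2 : S ≤ CS * Cz ^ aS * (c.K (c.G q (sl (len2 x y))) ^ ((2 + az) * aS) *
        Cst.lg (sl (len2 x y)) ^ aS) := by
      refine hS.trans ((Nat.mul_le_mul_left _ (Nat.pow_le_pow_left h1 aS)).trans (le_of_eq ?_))
      rw [mul_pow, mul_pow, ← pow_mul]
      show CS * (Cz ^ aS * c.K (c.G q (sl (len2 x y))) ^ ((2 + az) * aS) *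
        Cst.lg (sl (len2 x y)) ^ aS) = _
      ring
    have h3 : sl (len2 x y) ≤ 2 * max x.length y.length := by
      show x.length + y.length ≤ _
      omega
    refine (hcost (sl (len2 x y)) (cb * Nat.size (sl (len2 x y) + 2)) S
      (max x.length y.length) (Nat.mul_le_mul_left _ (size_le_lg _)) h2 h3).trans ?_
    have h4 := hb (max x.length y.length)
    have h5 : (0 : ℝ) ≤ ((360 * ((n0 + 1) * (2 * n0 + 1)) + 10 : ℕ) : ℝ) := Nat.cast_nonneg _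
    nlinarith
  · have h4 := hb n
    have h5 : (0 : ℝ) ≤ ((360 * ((n0 + 1) * (2 * n0 + 1)) + 10 : ℕ) : ℝ) := Nat.cast_nonneg _
    nlinarith

end Cst2

end Vale.Agent.P315.H608
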