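import Vale.Agent.P315.H608.Time2
import Vale.Agent.P315.H608.Size2
import Vale.Agent.P315.H36.ParTime
import Vale.Agent.P315.H486.Inst2

/-!
# Milestone 2: the running time of the main program is truly subquadratic
-/

set_option autoImplicit false

namespace Vale.Agent.P315.H608

open Vale.Agent.P315.H809 Vale.Agent.P315.H527 Vale.Agent.P315.H873 Vale.Agent.P315.H36
open Vale.Agent.P315.H486 (MulF)

/-! ### Polynomials in `K` and the logarithm -/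

/-- `f n g` is at most `K g ^ a` times a power of the logarithm of `n`. -/
def PL (c : Cst) (a : ℕ) (f : ℕ → ℕ → ℕ) : Prop :=
  ∃ C b : ℕ, ∀ n g, f n g ≤ C * (c.K g ^ a * Cst.lg n ^ b)

section PL

variable {c : Cst} {f f' : ℕ → ℕ → ℕ} {a a' : ℕ}

theorem PL.mono (h : PL c a f) (hle : ∀ n g, f' n g ≤ f n g) : PL c a f' := by
  obtain ⟨C, b, h⟩ := h
  exact ⟨C, b, fun n g => (hle n g).trans (h n g)⟩

theorem PL.exp (h : PL c a f) (ha : a ≤ a') : PL c a' f := by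
  obtain ⟨C, b, h⟩ := h
  refine ⟨C, b, fun n g => (h n g).trans ?_⟩
  exact Nat.mul_le_mul_left _ (Nat.mul_le_mul_right _ (Nat.pow_le_pow_right (Cst.K_pos g) ha))

theorem PL.of_PK {f : ℕ → ℕ} (h : PK c f) : ∃ a, PL c a (fun _ g => f g) := by
  obtain ⟨C, a, h⟩ := h
  exact ⟨a, C, 0, fun n g => by rw [pow_zero, Nat.mul_one]; exact h g⟩

theorem PL.const (k : ℕ) : PL c a (fun _ _ => k) := by
  refine ⟨k, 0, fun n g => ?_⟩
  have : 1 ≤ c.K g ^ a := Nat.one_le_pow _ _ (Cst.K_pos g)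
  rw [pow_zero, Nat.mul_one]
  exact Nat.le_mul_of_pos_right _ this

theorem PL.add (h : PL c a f) (h' : PL c a f') : PL c a (fun n g => f n g + f' n g) := by
  obtain ⟨C, b, h⟩ := h
  obtain ⟨C', b', h'⟩ := h'
  refine ⟨C + C', b + b', fun n g => ?_⟩
  have hl := Cst.lg_pos n
  have h1 : c.K g ^ a * Cst.lg n ^ b ≤ c.K g ^ a * Cst.lg n ^ (b + b') :=
    Nat.mul_le_mul_left _ (Nat.pow_le_pow_right hl (by omega))
  have h2 : c.K g ^ a * Cst.lg n ^ b' ≤ c.K g ^ a * Cst.lg n ^ (b + b') :=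
    Nat.mul_le_mul_left _ (Nat.pow_le_pow_right hl (by omega))
  calc f n g + f' n g ≤ C * (c.K g ^ a * Cst.lg n ^ (b + b')) +
        C' * (c.K g ^ a * Cst.lg n ^ (b + b')) :=
        Nat.add_le_add ((h n g).trans (Nat.mul_le_mul_left _ h1))
          ((h' n g).trans (Nat.mul_le_mul_left _ h2))
    _ = _ := by ring

theorem PL.mul (h : PL c a f) (h' : PL c a' f') : PL c (a + a') (fun n g => f n g * f' n g) := by
  obtain ⟨C, b, h⟩ := h
  obtain ⟨C', b', h'⟩ := h'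
  refine ⟨C * C', b + b', fun n g => ?_⟩
  calc f n g * f' n g ≤ (C * (c.K g ^ a * Cst.lg n ^ b)) * (C' * (c.K g ^ a' * Cst.lg n ^ b')) :=
        Nat.mul_le_mul (h n g) (h' n g)
    _ = _ := by rw [pow_add, pow_add]; ring

theorem PL.pow (h : PL c a f) (k : ℕ) : PL c (a * k) (fun n g => f n g ^ k) := by
  obtain ⟨C, b, h⟩ := h
  refine ⟨C ^ k, b * k, fun n g => ?_⟩
  calc f n g ^ k ≤ (C * (c.K g ^ a * Cst.lg n ^ b)) ^ k := Nat.pow_le_pow_left (h n g) k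
    _ = _ := by rw [mul_pow, mul_pow, ← pow_mul, ← pow_mul]

/-- truly subquadratic -/
theorem PL.subQ (h : PL c a f) {q : ℕ} (ha : a ≤ q) :
    SubQ (fun N => (f N (lev0 c.M q N) : ℝ)) := by
  obtain ⟨C, b, h⟩ := h
  refine ((subQ_lin.mul_log b).const_mul (c := (C : ℝ)) (Nat.cast_nonneg _)).mono fun N => ?_
  have h1 : (f N (lev0 c.M q N) : ℝ) ≤ C * ((c.K (lev0 c.M q N) : ℝ) ^ a *
      ((Nat.log 2 (N + 2) : ℝ) + 1) ^ b) := by exact_mod_cast h N (lev0 c.M q N)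
  have h2 : (c.K (lev0 c.M q N) : ℝ) ^ a ≤ (N : ℝ) + 1 := by
    exact_mod_cast Cst.K_pow_le_of_le ha N
  refine h1.trans ?_
  apply mul_le_mul_of_nonneg_left _ (Nat.cast_nonneg _)
  exact mul_le_mul_of_nonneg_right h2 (by positivity)

/-- truly subquadratic, with a factor `N + 1` -/
theorem PL.subQ1 (h : PL c a f) {q : ℕ} (ha : 2 * a ≤ q) :
    SubQ (fun N => (f N (lev0 c.M q N) : ℝ) * ((N : ℝ) + 1)) := by
  obtain ⟨C, b, h⟩ := h
  have h0 : SubQ (fun N : ℕ => ((N : ℝ) + 1) ^ (3 / 2 : ℝ)) :=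
    ⟨1 / 2, 1, by norm_num, by norm_num, zero_le_one, fun N => by
      rw [one_mul]; norm_num⟩
  refine ((h0.mul_log b).const_mul (c := (C : ℝ)) (Nat.cast_nonneg _)).mono fun N => ?_
  have hN : (0 : ℝ) < (N : ℝ) + 1 := by positivity
  have h1 : (f N (lev0 c.M q N) : ℝ) ≤ C * ((c.K (lev0 c.M q N) : ℝ) ^ a *
      ((Nat.log 2 (N + 2) : ℝ) + 1) ^ b) := by exact_mod_cast h N (lev0 c.M q N)
  have h2 : ((c.K (lev0 c.M q N) : ℝ) ^ a) ^ 2 ≤ (N : ℝ) + 1 := by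
    rw [← pow_mul]
    exact_mod_cast Cst.K_pow_le_of_le (show a * 2 ≤ q by omega) N
  have h3 : (c.K (lev0 c.M q N) : ℝ) ^ a ≤ ((N : ℝ) + 1) ^ (1 / 2 : ℝ) := by
    rw [← Real.sqrt_eq_rpow]
    exact Real.le_sqrt_of_sq_le h2
  have h4 : ((N : ℝ) + 1) ^ (1 / 2 : ℝ) * ((N : ℝ) + 1) = ((N : ℝ) + 1) ^ (3 / 2 : ℝ) := by
    rw [← Real.rpow_add_one hN.ne']; norm_num
  calc (f N (lev0 c.M q N) : ℝ) * ((N : ℝ) + 1)
      ≤ (C * ((c.K (lev0 c.M q N) : ℝ) ^ a * ((Nat.log 2 (N + 2) : ℝ) + 1) ^ b)) *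
          ((N : ℝ) + 1) := mul_le_mul_of_nonneg_right h1 hN.le
    _ ≤ (C * (((N : ℝ) + 1) ^ (1 / 2 : ℝ) * ((Nat.log 2 (N + 2) : ℝ) + 1) ^ b)) *
          ((N : ℝ) + 1) := by gcongr
    _ = C * ((((N : ℝ) + 1) ^ (1 / 2 : ℝ) * ((N : ℝ) + 1)) *
          ((Nat.log 2 (N + 2) : ℝ) + 1) ^ b) := by ring
    _ = _ := by rw [h4]

end PL

/-! ### The base algorithm -/

namespace Cst2

variable (c : Cst2)

/-- The parameters of the base algorithm as functions of `N = |x| + |y|`. -/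
def stN (q : ℕ) : StF ℕ where
  e N := c.se N (c.G q N)
  lam N := c.lam (c.G q N)
  kap N := c.kap (c.G q N)
  Kr N := c.K (c.G q N)
  nS N := c.nS N (c.G q N)
  mu N := c.μ2 N (c.G q N)
  l2 N := c.ℓh N (c.G q N)
  c0 N := c.c0 N (c.G q N)

theorem stN_nE (q N : ℕ) : (c.stN q).nE N = c.nE N (c.G q N) := by
  show 2 * c.ℓh N (c.G q N) / c.μ2 N (c.G q N) + 1 = _
  rw [← ℓ2_eq_two_mul]
  rfl

/-- the small numbers of the base algorithm -/
def zf (g : ℕ) : ℕ :=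
  2 ^ c.w g + c.K g + (2 ^ (c.Kc g + c.z g + 1) * c.K g + 1) + (2 ^ (c.w g + c.z g) + 1)

theorem PK_w : PK c.toCst (fun g => 2 ^ c.w g) := (PK.K (c := c.toCst)).mono fun g => two_pow_w_le g

theorem PK_z : PK c.toCst (fun g => 2 ^ c.z g) := PK.two_pow_S c.e₀ c.e₁

theorem PK_wz : PK c.toCst (fun g => 2 ^ (c.w g + c.z g)) :=
  (c.PK_w.mul c.PK_z).mono fun g => (pow_add 2 (c.w g) (c.z g)).le

theorem PK_zf : PK c.toCst c.zf := by
  have h1 : PK c.toCst (fun g => 2 ^ (c.Kc g + c.z g + 1) * c.K g + 1) := by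
    refine ((((c.PK_w.mul c.PK_z).mul (PK.const (2 ^ (c.c2 + 1)))).mul PK.K).add
      (PK.const 1)).mono fun g => ?_
    rw [← pow_add, ← pow_add, show c.w g + c.z g + (c.c2 + 1) = c.Kc g + c.z g + 1 by
      unfold Kc; ring]
  exact ((c.PK_w.add PK.K).add h1).add (c.PK_wz.add (PK.const 1))

theorem small (q N : ℕ) {Z : ℕ} (hZ : c.zf (c.G q N) ≤ Z) : (c.stN q).Small N Z := by
  unfold zf at hZ
  have hK := K_eq (c := c) (c.G q N)
  have hS := nS_eq (c := c) N (c.G q N)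
  have hE := nE_eq (c := c) N (c.G q N)
  have hE' := c.stN_nE q N
  have p2 := Nat.zero_le (2 ^ c.w (c.G q N))
  have p4 := Nat.zero_le (2 ^ (c.w (c.G q N) + c.z (c.G q N)))
  refine ⟨ok_se N (c.G q N), ?_, ?_, ?_, ?_, ?_⟩
  · show 2 ^ c.w (c.G q N) ≤ Z
    omega
  · show 2 ^ c.kap (c.G q N) ≤ Z
    rw [← hK]
    omega
  · show c.K (c.G q N) ≤ Z
    omega
  · show c.nS N (c.G q N) ≤ Z
    omega
  · omega

/-- **START** is truly subquadratic. -/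
theorem subQ_start : ∃ q₀ : ℕ, ∀ q, q₀ ≤ q → SubQ (fun N => ((c.stN q).time N : ℝ)) := by
  obtain ⟨C', a, hZ⟩ := c.PK_zf
  refine ⟨720 * a + 12, fun q hq => ?_⟩
  obtain ⟨C, hC, h⟩ := StF.exists_time_sub a (C₁ := (C' : ℝ)) (C₂ := 2) (by norm_num)
  have h0 : SubQ (fun N : ℕ => C * ((N : ℝ) + 1) ^ (2 - 1 / 40 : ℝ)) :=
    ⟨1 / 40, C, by norm_num, by norm_num, hC.le, fun N => le_rfl⟩
  obtain ⟨N₁, hN₁⟩ := c.ok_large (q := q) (by omega)
  obtain ⟨N₂, hN₂⟩ := c.K_mul_ℓ2_le_two (q := q) (by omega)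
  refine h0.of_eventually (max N₁ N₂) fun N hN => ?_
  have h1 := hN₁ N ((le_max_left _ _).trans hN)
  have h2 := hN₂ N ((le_max_right _ _).trans hN)
  have h3 : c.ℓ2 N (c.G q N) ≤ 2 * N :=
    (Nat.le_mul_of_pos_left _ (Cst.K_pos _)).trans h2
  refine h ℕ (c.stN q) N (C' * c.K (c.G q N) ^ a) (c.ℓ2 N (c.G q N)) (c.K (c.G q N)) q N
    (c.small q N (hZ _)) (two_pow_se_le h1) (Cst.K_pos _) (Cst.K_pow_le q N) (by omega)
    (by push_cast; exact le_rfl) ?_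
  have h4 : (c.ℓ2 N (c.G q N) : ℝ) ≤ 2 * N := by exact_mod_cast h3
  linarith

/-- the number of seeds of the base algorithm -/
theorem subQ_nSd : ∃ q₀ : ℕ, ∀ q, q₀ ≤ q → SubQ (fun N => ((c.stN q).nSd N : ℝ)) := by
  obtain ⟨C', a, hZ⟩ := c.PK_zf
  refine ⟨6 * a + 12, fun q hq => ?_⟩
  have hp : PL c.toCst (a * 3) (fun _ g => 2 ^ 23 * (C' * c.K g ^ a) ^ 3) := by
    refine ⟨2 ^ 23 * C' ^ 3, 0, fun n g => ?_⟩
    show 2 ^ 23 * (C' * c.K g ^ a) ^ 3 ≤ _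
    rw [mul_pow, ← pow_mul, pow_zero, Nat.mul_one, Nat.mul_assoc]
  obtain ⟨N₁, hN₁⟩ := c.ok_large (q := q) (by omega)
  obtain ⟨N₂, hN₂⟩ := c.K_mul_ℓ2_le_two (q := q) (by omega)
  refine (hp.subQ1 (q := q) (by omega)).of_eventually (max N₁ N₂) fun N hN => ?_
  have h1 := hN₁ N ((le_max_left _ _).trans hN)
  have h2 := hN₂ N ((le_max_right _ _).trans hN)
  have h3 : c.ℓ2 N (c.G q N) ≤ 2 * N :=
    (Nat.le_mul_of_pos_left _ (Cst.K_pos _)).trans h2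
  have hs := c.small q N (hZ (c.G q N))
  have h4 := hs.r4
  have h5 : 2 ^ ((c.stN q).e N / 5) ≤ 2 * N := by
    refine le_trans (Nat.pow_le_pow_right (by norm_num) (Nat.div_le_self _ _)) ?_
    exact (two_pow_se_le h1).trans h3
  obtain ⟨l1, l2, l3, l4, l5, l6, l7, l8⟩ := SP.loops_le hs.ok
  have h6 : (c.stN q).nSd N ≤ 2 ^ 23 * (C' * c.K (c.G q N) ^ a) ^ 3 * (N + 1) := by
    have e1 : ((c.stN q).q N).loops ≤ (c.stN q).r4 N + 2 := by unfold StF.r4; omega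
    have e2 : (c.stN q).nSd N ≤ 2 * ((c.stN q).r4 N + 2) := by
      unfold StF.nSd; omega
    calc (c.stN q).nSd N ≤ 2 * ((c.stN q).r4 N + 2) := e2
      _ ≤ 2 * (2 ^ 21 * (C' * c.K (c.G q N) ^ a) ^ 3 * 2 ^ ((c.stN q).e N / 5)) :=
          Nat.mul_le_mul_left _ h4
      _ ≤ 2 * (2 ^ 21 * (C' * c.K (c.G q N) ^ a) ^ 3 * (2 * N)) :=
          Nat.mul_le_mul_left _ (Nat.mul_le_mul_left _ h5)
      _ = 2 ^ 23 * (C' * c.K (c.G q N) ^ a) ^ 3 * N := by ring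
      _ ≤ _ := Nat.mul_le_mul_left _ (Nat.le_succ N)
  exact_mod_cast h6

/-! ### The rounds -/

theorem stTime_le (n g : ℕ) :
    MulF.stTime (c.ℓ2 n g) (c.μ2 n g) (2 ^ (c.w g + c.z g)) ≤ 2400 * c.ℓ2 n g ^ 2 := by
  have h1 := H817.stCell_time (l := c.ℓ2 n g) (g := c.μ2 n g) (m := 2 ^ (c.w g + c.z g)) rfl
  have h2 := μ2_le_ℓ2 (c := c) n g
  have h3 := two_pow_wz_le_ℓ2 (c := c) n g
  have h4 := ℓ2_pos (c := c) n g
  unfold MulF.stTime
  refine h1.trans ?_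
  generalize c.ℓ2 n g = l at *
  have h5 : (l + c.μ2 n g + 2 ^ (c.w g + c.z g) + 1) * (l + 1) ≤ (4 * l) * (2 * l) :=
    Nat.mul_le_mul (by omega) (by omega)
  calc 300 * ((l + c.μ2 n g + 2 ^ (c.w g + c.z g) + 1) * (l + 1)) ≤ 300 * ((4 * l) * (2 * l)) :=
        Nat.mul_le_mul_left _ h5
    _ = _ := by ring

end Cst2

/-- The cost of 486's main program as a function of the numbers. -/
def costN (k₁ k₂ n m N Q NS NV kb l mu mc rl S Tp : ℕ) : ℕ :=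
  Tp + Q * (MulF.stTime l mu mc + (mc + 2) * (S + 2 * m + 10) ^ k₂) +
    360 * ((n + 1) * (kb + 1)) + 82 * n + (4 * m + 10) ^ k₁ +
    14 * N + 7 * rl + 10 * NS + (rl + N + NV) * (41 * m + 40) +
    3 * ((rl + N + NV) * (2 * m + 1) + S + 2 * m + 10) ^ k₂ + 200

theorem cost_eq (F : MulF) (k₁ k₂ : ℕ) (p : ℕ × ℕ) (S Tp : ℕ) :
    F.cost k₁ k₂ p S Tp = costN k₁ k₂ (p.1 + p.2) (F.m p) (F.N p) (F.Q p) (F.NS p) (F.NV p)
      (F.kb p) (F.l p) (F.mu p) (F.mc p) F.rs.length S Tp := rfl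

namespace Cst2

variable (c : Cst2)

/-- The cost at the parameters of `Cst2`. -/
def costC (q k₁ k₂ N₀ rl N m S : ℕ) : ℕ :=
  costN k₁ k₂ N m (c.Nu2 (c.G q N)) (c.Q2 (c.G q N)) ((c.stN q).nSd N) (c.NV N (c.G q N))
    (c.kb N₀ N (c.G q N)) (c.ℓ2 N (c.G q N)) (c.μ2 N (c.G q N))
    (2 ^ (c.w (c.G q N) + c.z (c.G q N))) rl S (36 + (c.stN q).time N)

theorem costC_mono (q k₁ k₂ N₀ rl N : ℕ) {m m' S S' : ℕ} (hm : m ≤ m') (hS : S ≤ S') :
    c.costC q k₁ k₂ N₀ rl N m S ≤ c.costC q k₁ k₂ N₀ rl N m' S' := by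
  unfold costC costN
  gcongr

/-- polynomials in `K` of the overheads -/
theorem exists_PL : ∃ a : ℕ,
    PL c.toCst a (fun _ g => c.Q2 g * (2 ^ (c.w g + c.z g) + 2)) ∧
    PL c.toCst a (fun _ g => c.Nu2 g) ∧ PL c.toCst a (fun n g => c.NV n g) := by
  have hKc : PK c.toCst (fun g => 2 ^ (c.Kc g + c.z g + 5)) := by
    refine ((c.PK_w.mul c.PK_z).mul (PK.const (2 ^ (c.c2 + 5)))).mono fun g => ?_
    rw [← pow_add, ← pow_add, show c.w g + c.z g + (c.c2 + 5) = c.Kc g + c.z g + 5 by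
      unfold Kc; ring]
  have hQ : PK c.toCst (fun g => c.Q g) :=
    ((PK.const (2 * c.C0)).mul (PK.K.pow 2)).mono fun g => Cst.Q_le g
  have h1 : PK c.toCst (fun g => c.Q2 g * (2 ^ (c.w g + c.z g) + 2)) :=
    (hQ.mul hKc).mul (c.PK_wz.add (PK.const 2))
  have hL : PK c.toCst (fun g => c.L g + 1) := PK.L.add (PK.const 1)
  have hS : PK c.toCst (fun g => c.S g + 1) := PK.S.add (PK.const 1)
  have hCn : PK c.toCst (fun g => c.Cn g) := (PK.two_pow_S c.ms 0).mono fun _ => le_rfl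
  have h2 : PK c.toCst (fun g => c.Nu2 g) :=
    (hL.mul (PK.const c.M)).add (hL.mul (hS.mul hCn))
  have h3 : PK c.toCst (fun g => c.K g * c.zf g * c.zf g) := (PK.K.mul c.PK_zf).mul c.PK_zf
  obtain ⟨a1, p1⟩ := PL.of_PK h1
  obtain ⟨a2, p2⟩ := PL.of_PK h2
  obtain ⟨a3, p3⟩ := PL.of_PK h3
  refine ⟨a1 + a2 + a3, p1.exp (by omega), p2.exp (by omega), (p3.exp (by omega)).mono
    fun n g => ?_⟩
  have z1 := Nat.zero_le (2 ^ c.w g)
  have z2 := Nat.zero_le (2 ^ (c.w g + c.z g))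
  have e1 : c.nS n g ≤ c.zf g := by rw [nS_eq]; unfold zf; omega
  have e2 : c.nE n g ≤ c.zf g := by rw [nE_eq]; unfold zf; omega
  exact Nat.mul_le_mul (Nat.mul_le_mul_left _ e1) e2

/-- **The running time of the main program is truly subquadratic.** `k₂`, `aS` are chosen before
`q`; the size of the states is at most `CS K ^ aS (log N) ^ rS`, the numbers have at most
`cb log N` bits. -/
theorem cost_le (hak : 3 * c.h ≤ c.ak) (k₂ aS : ℕ) : ∃ q₀ : ℕ, 1 ≤ q₀ ∧ ∀ q, q₀ ≤ q →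
    ∀ k₁ N₀ rl cb CS rS : ℕ, ∃ δ C : ℝ, 0 < δ ∧ δ ≤ 1 ∧ 0 ≤ C ∧ ∀ N m S n : ℕ,
      m ≤ cb * Cst.lg N → S ≤ CS * (c.K (c.G q N) ^ aS * Cst.lg N ^ rS) → N ≤ 2 * n →
      ((c.costC q k₁ k₂ N₀ rl N m S + 8 : ℕ) : ℝ) ≤ C * ((n : ℝ) + 1) ^ (2 - δ) := by
  obtain ⟨a, p1, p2, p3⟩ := c.exists_PL
  obtain ⟨q₁, hq₁⟩ := c.subQ_start
  obtain ⟨q₂, hq₂⟩ := c.subQ_nSd
  refine ⟨q₁ + q₂ + a + (a + aS) * (k₂ + 1) + 12, by omega, fun q hq k₁ N₀ rl cb CS rS => ?_⟩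
  -- bits and states
  have pm : PL c.toCst 0 (fun n _ => cb * Cst.lg n) :=
    ⟨cb, 1, fun n g => by rw [pow_zero, Nat.one_mul, pow_one]⟩
  have pS : PL c.toCst aS (fun n g => CS * (c.K g ^ aS * Cst.lg n ^ rS)) :=
    ⟨CS, rS, fun n g => le_rfl⟩
  have pX : PL c.toCst aS (fun n g => CS * (c.K g ^ aS * Cst.lg n ^ rS) +
      2 * (cb * Cst.lg n) + 10) :=
    (pS.add ((((PL.const (a := 0) 2).mul pm)).exp (by omega))).add (PL.const 10)
  have pF : PL c.toCst a (fun n g => rl + c.Nu2 g + c.NV n g) :=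
    ((PL.const rl).add p2).add p3
  have pY : PL c.toCst (a + aS) (fun n g => (rl + c.Nu2 g + c.NV n g) * (2 * (cb * Cst.lg n) + 1) +
      CS * (c.K g ^ aS * Cst.lg n ^ rS) + 2 * (cb * Cst.lg n) + 10) := by
    have h1 : PL c.toCst 0 (fun n _ => 2 * (cb * Cst.lg n) + 1) :=
      ((PL.const (a := 0) 2).mul pm).add (PL.const 1)
    exact ((((pF.mul h1).exp (by omega)).add (pS.exp (by omega))).add
      (((PL.const (a := 0) 2).mul pm).exp (by omega))).add (PL.const 10)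
  have k2le : (a + aS) * k₂ ≤ (a + aS) * (k₂ + 1) := Nat.mul_le_mul_left _ (by omega)
  have k2le' : aS * k₂ ≤ (a + aS) * k₂ := Nat.mul_le_mul_right _ (by omega)
  -- the terms
  have t1 := hq₁ q (by omega)
  have t2 := (c.subQ_rounds (q := q) (by omega) hak).const_mul (c := 2400) (by norm_num)
  have t3 := (p1.mul (pX.pow k₂)).subQ (q := q) (by omega)
  have t4 := (c.subQ_band (q := q) (by omega) N₀).const_mul (c := 360) (by norm_num)
  have t5 := subQ_lin.const_mul (c := 82) (by norm_num)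
  have t6 := ((((PL.const (c := c.toCst) (a := 0) 4).mul pm).add (PL.const 10)).pow k₁).subQ
    (q := q) (by omega)
  have t7 := (((PL.const (c := c.toCst) (a := 0) 14).mul p2)).subQ (q := q) (by omega)
  have t8 := (hq₂ q (by omega)).const_mul (c := 10) (by norm_num)
  have t9 := (pF.mul (((PL.const (c := c.toCst) (a := 0) 41).mul pm).add (PL.const 40))).subQ
    (q := q) (by omega)
  have t10 := ((PL.const (c := c.toCst) (a := 0) 3).mul (pY.pow k₂)).subQ (q := q) (by omega)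
  have t11 := subQ_const ((7 * rl + 300 : ℕ) : ℝ)
  have tall := (((((((((t1.add t2).add t3).add t4).add t5).add t6).add t7).add t8).add t9).add
    t10).add t11
  -- the bound as a function of `N`
  have hcost : SubQ (fun N => ((c.costC q k₁ k₂ N₀ rl N (cb * Cst.lg N)
      (CS * (c.K (c.G q N) ^ aS * Cst.lg N ^ rS)) + 8 : ℕ) : ℝ)) := by
    refine tall.mono fun N => ?_
    have hst : ((MulF.stTime (c.ℓ2 N (c.G q N)) (c.μ2 N (c.G q N))
        (2 ^ (c.w (c.G q N) + c.z (c.G q N))) : ℕ) : ℝ) ≤ 2400 * (c.ℓ2 N (c.G q N) : ℝ) ^ 2 := by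
      exact_mod_cast c.stTime_le N (c.G q N)
    have hQ0 : (0 : ℝ) ≤ (c.Q2 (c.G q N) : ℝ) := Nat.cast_nonneg _
    have hr := mul_le_mul_of_nonneg_left hst hQ0
    unfold costC costN
    push_cast at hr ⊢
    nlinarith [hr]
  obtain ⟨δ, C, hδ, hδ1, hC, hle⟩ := hcost
  refine ⟨δ, C * 4, hδ, hδ1, by positivity, fun N m S n hm hS hn => ?_⟩
  have h1 : ((c.costC q k₁ k₂ N₀ rl N m S + 8 : ℕ) : ℝ) ≤
      ((c.costC q k₁ k₂ N₀ rl N (cb * Cst.lg N)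
        (CS * (c.K (c.G q N) ^ aS * Cst.lg N ^ rS)) + 8 : ℕ) : ℝ) := by
    exact_mod_cast Nat.add_le_add_right (c.costC_mono q k₁ k₂ N₀ rl N hm hS) 8
  refine h1.trans ((hle N).trans ?_)
  have hn' : (N : ℝ) ≤ 2 * n := by exact_mod_cast hn
  have h2 : ((N : ℝ) + 1) ^ (2 - δ) ≤ (2 * ((n : ℝ) + 1)) ^ (2 - δ) :=
    Real.rpow_le_rpow (by positivity) (by linarith) (by linarith)
  have h3 : (2 * ((n : ℝ) + 1)) ^ (2 - δ) ≤ 4 * ((n : ℝ) + 1) ^ (2 - δ) := by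
    rw [Real.mul_rpow (by norm_num) (by positivity)]
    apply mul_le_mul_of_nonneg_right _ (by positivity)
    calc (2 : ℝ) ^ (2 - δ) ≤ (2 : ℝ) ^ (2 : ℝ) :=
          Real.rpow_le_rpow_of_exponent_le (by norm_num) (by linarith)
      _ = 4 := by norm_num
  calc C * ((N : ℝ) + 1) ^ (2 - δ) ≤ C * (4 * ((n : ℝ) + 1) ^ (2 - δ)) :=
        mul_le_mul_of_nonneg_left (h2.trans h3) hC
    _ = _ := by ring

end Cst2

end Vale.Agent.P315.H608
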