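import Vale.Agent.P315.H608.Cst2

/-!
# Milestone 2: the constants of the concrete family
-/

set_option autoImplicit false

namespace Vale.Agent.P315.H608

/-- The constants of milestone 2 for `M = 2 ^ (20 m)`, `B = 2 ^ m`. -/
def mulCst (m k h C0 ak e₀ e₁ C1 : ℕ) (hm : 1 ≤ m) (hh : 1 ≤ h) (hC0 : 1 ≤ C0) (hak : 1 ≤ ak)
    (he₁ : 1 ≤ e₁) : Cst2 where
  B := 2 ^ m
  M := 2 ^ (20 * m)
  C0 := C0
  h := h
  wm := 2 * h
  ms := 4 * m
  kc := k
  mt := 270 * m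
  mm := m
  mp := 0
  ak := ak
  e₀ := e₀
  e₁ := e₁
  c2 := 4
  bm := 20 * m
  C1 := C1
  hB := Nat.le_self_pow (by omega) 2
  hM := Nat.le_self_pow (by omega) 2
  hC0 := hC0
  hh := hh
  hwm := le_rfl
  hak := hak
  he₁ := he₁
  hbm := rfl

end Vale.Agent.P315.H608
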