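import Vale.Agent.P315.H809.Exp

/-!
# Milestone 2: the parameters which are chosen last

`n` levels, `w ≤ n / A`, `L = 2 ^ w` = range of the densities. Everything which is a constant power
of `L`, and the class variation (`log (k₀ L)` and `√(n log (k₀ L))`), is negligible when `A` is
large.
-/

set_option autoImplicit false

namespace Vale.Agent.P315.H608

open Real

/-- `Bd = log (k₀ 2 ^ w)`: upper bound -/
theorem log_mul_two_pow {k₀ : ℝ} (hk : 1 ≤ k₀) (w : ℕ) :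
    Real.log (k₀ * 2 ^ w) = Real.log k₀ + w * Real.log 2 := by
  rw [Real.log_mul (by positivity) (by positivity), Real.log_pow]

theorem log_mul_two_pow_nonneg {k₀ : ℝ} (hk : 1 ≤ k₀) (w : ℕ) :
    0 ≤ Real.log (k₀ * 2 ^ w) := by
  apply Real.log_nonneg
  have : (1 : ℝ) ≤ 2 ^ w := one_le_pow₀ (by norm_num)
  nlinarith

/-- **The densities.** For every `C, ε` there is `A₀` such that for all `A ≥ A₀`, all large `n` and
all `w ≤ n / A`: `C (log (k₀ 2 ^ w) + √(n log (k₀ 2 ^ w)) + 1) ≤ ε n`. -/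
theorem dens_small {k₀ : ℝ} (hk : 1 ≤ k₀) (C : ℝ) {ε : ℝ} (hε : 0 < ε) :
    ∃ A₀ : ℕ, 1 ≤ A₀ ∧ ∀ A : ℕ, A₀ ≤ A → ∃ n₀ : ℕ, ∀ n w : ℕ, n₀ ≤ n → A * w ≤ n →
      C * (Real.log (k₀ * 2 ^ w) + √(n * Real.log (k₀ * 2 ^ w)) + 1) ≤ ε * n := by
  have hl2 : Real.log 2 ≤ 1 := by
    have := Real.log_le_sub_one_of_pos (show (0 : ℝ) < 2 by norm_num)
    linarith
  have hl20 : 0 < Real.log 2 := Real.log_pos (by norm_num)
  obtain ⟨r, hr⟩ := exists_nat_gt (6 * |C| / ε + 1)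
  refine ⟨r ^ 2, Nat.one_le_pow _ _ ?_, fun A hA => ?_⟩
  · have h0 : (0 : ℝ) ≤ 6 * |C| / ε := by positivity
    have : (0 : ℝ) < r := by linarith
    exact_mod_cast this
  have hr0 : (1 : ℝ) < r := by
    have h0 : (0 : ℝ) ≤ 6 * |C| / ε := by positivity
    linarith
  have hAr : (r : ℝ) ^ 2 ≤ A := by exact_mod_cast hA
  have hA0 : (0 : ℝ) < A := by nlinarith
  have hk0 : 0 ≤ Real.log k₀ := Real.log_nonneg hk
  obtain ⟨n₀, hn₀⟩ := exists_nat_ge (A * Real.log k₀ + 3 * |C| / ε)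
  refine ⟨n₀, fun n w hn hw => ?_⟩
  have hn' : A * Real.log k₀ + 3 * |C| / ε ≤ n := hn₀.trans (by exact_mod_cast hn)
  have h1 : A * Real.log k₀ ≤ n := by
    have : 0 ≤ 3 * |C| / ε := by positivity
    linarith
  have h2 : 3 * |C| ≤ ε * n := by
    have h3 : 0 ≤ A * Real.log k₀ := by positivity
    have h4 : 3 * |C| / ε ≤ n := by linarith
    rw [div_le_iff₀ hε] at h4
    linarith
  have hn0 : (0 : ℝ) ≤ n := Nat.cast_nonneg n
  have hw' : (A : ℝ) * w ≤ n := by exact_mod_cast hw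
  set Bd := Real.log (k₀ * 2 ^ w) with hBd
  have hB0 : 0 ≤ Bd := log_mul_two_pow_nonneg hk w
  have hB : A * Bd ≤ 2 * n := by
    rw [hBd, log_mul_two_pow hk]
    have : (A : ℝ) * (w * Real.log 2) ≤ n := by
      calc (A : ℝ) * (w * Real.log 2) = (A * w) * Real.log 2 := by ring
        _ ≤ n * 1 := mul_le_mul hw' hl2 hl20.le hn0
        _ = n := mul_one _
    nlinarith
  have hr0' : (0 : ℝ) < r := by linarith
  -- `Bd ≤ 2 n / r^2 ≤ 2 n / r`
  have hB1 : r * Bd ≤ 2 * n := by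
    calc r * Bd ≤ r ^ 2 * Bd := mul_le_mul_of_nonneg_right (by nlinarith) hB0
      _ ≤ A * Bd := mul_le_mul_of_nonneg_right hAr hB0
      _ ≤ 2 * n := hB
  -- `√(n Bd) ≤ 2 n / r`
  have hB2 : r * √(n * Bd) ≤ 2 * n := by
    have h5 : √(n * Bd) ≤ 2 * n / r := by
      apply Real.sqrt_le_iff.2
      refine ⟨by positivity, ?_⟩
      rw [div_pow, le_div_iff₀ (by positivity)]
      have : r ^ 2 * Bd ≤ 2 * n := (mul_le_mul_of_nonneg_right hAr hB0).trans hB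
      nlinarith
    calc r * √(n * Bd) ≤ r * (2 * n / r) := mul_le_mul_of_nonneg_left h5 hr0'.le
      _ = 2 * n := by field_simp
  have hs0 : 0 ≤ √(n * Bd) := Real.sqrt_nonneg _
  have h6 : 6 * |C| ≤ ε * r := by
    have : 6 * |C| / ε ≤ r := by linarith
    rw [div_le_iff₀ hε] at this
    linarith
  have h7 : |C| * (Bd + √(n * Bd)) ≤ ε * n * (2 / 3) := by
    have h8 : (6 * |C|) * (Bd + √(n * Bd)) ≤ (ε * r) * (Bd + √(n * Bd)) :=
      mul_le_mul_of_nonneg_right h6 (by positivity)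
    have h9 : (ε * r) * (Bd + √(n * Bd)) ≤ ε * (4 * n) := by
      rw [mul_assoc]
      apply mul_le_mul_of_nonneg_left _ hε.le
      linarith
    nlinarith
  calc C * (Bd + √(n * Bd) + 1) ≤ |C| * (Bd + √(n * Bd) + 1) :=
        mul_le_mul_of_nonneg_right (le_abs_self C) (by positivity)
    _ = |C| * (Bd + √(n * Bd)) + |C| := by ring
    _ ≤ ε * n := by linarith

/-- polynomials against exponentials -/
theorem poly_le_exp (a : ℕ) (C₀ : ℝ) {c : ℝ} (hc : 0 < c) :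
    ∃ n₀ : ℕ, ∀ n : ℕ, n₀ ≤ n → C₀ * ((n : ℝ) + 1) ^ a ≤ Real.exp (c * n) := by
  have h := (isLittleO_pow_exp_pos_mul_atTop a (b := c) hc)
  have h1 := h.def (show (0 : ℝ) < 1 / ((|C₀| + 1) * Real.exp c) by positivity)
  have h2 : Filter.Tendsto (fun n : ℕ => (n : ℝ) + 1) Filter.atTop Filter.atTop :=
    Filter.tendsto_atTop_add_const_right _ _ tendsto_natCast_atTop_atTop
  obtain ⟨n₀, hn₀⟩ := Filter.eventually_atTop.1 (h2.eventually h1)
  refine ⟨n₀, fun n hn => ?_⟩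
  have h3 := hn₀ n hn
  have hp : (0 : ℝ) ≤ ((n : ℝ) + 1) ^ a := by positivity
  rw [Real.norm_of_nonneg hp, Real.norm_of_nonneg (Real.exp_pos _).le] at h3
  have h4 : Real.exp (c * ((n : ℝ) + 1)) = Real.exp c * Real.exp (c * n) := by
    rw [← Real.exp_add]; congr 1; ring
  rw [h4] at h3
  have h5 : 1 / ((|C₀| + 1) * Real.exp c) * (Real.exp c * Real.exp (c * n)) =
      Real.exp (c * n) / (|C₀| + 1) := by
    have := Real.exp_pos c
    field_simp
  rw [h5, le_div_iff₀ (by positivity)] at h3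
  have h6 : C₀ ≤ |C₀| + 1 := by linarith [le_abs_self C₀]
  nlinarith [mul_le_mul_of_nonneg_right h6 hp]

/-- powers of `L` are absorbed by the saving, for all `n` -/
theorem two_pow_mul_exp_le (a : ℕ) {c : ℝ} {A : ℕ} (hA1 : 1 ≤ A) (hA : 2 * (a : ℝ) ≤ c * A)
    {n w : ℕ} (hw : A * w ≤ n) :
    ((2 : ℝ) ^ w) ^ a * Real.exp (-(c * n)) ≤ Real.exp (-(c / 2 * n)) := by
  have hl2 : Real.log 2 ≤ 1 := by
    have := Real.log_le_sub_one_of_pos (show (0 : ℝ) < 2 by norm_num)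
    linarith
  have hl20 : 0 < Real.log 2 := Real.log_pos (by norm_num)
  have hA0 : (0 : ℝ) < A := by exact_mod_cast hA1
  have hn0 : (0 : ℝ) ≤ n := Nat.cast_nonneg n
  have hw' : (A : ℝ) * w ≤ n := by exact_mod_cast hw
  have e1 : ((2 : ℝ) ^ w) ^ a = Real.exp (a * (w * Real.log 2)) := by
    rw [Real.exp_nat_mul, Real.exp_nat_mul, Real.exp_log (by norm_num)]
  rw [e1, ← Real.exp_add]
  apply Real.exp_le_exp.2
  have h1 : (w : ℝ) * Real.log 2 ≤ n / A := by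
    rw [le_div_iff₀ hA0]
    calc (w : ℝ) * Real.log 2 * A = (A * w) * Real.log 2 := by ring
      _ ≤ n * 1 := mul_le_mul hw' hl2 hl20.le hn0
      _ = n := mul_one _
  have h2 : (a : ℝ) * (w * Real.log 2) ≤ a * (n / A) :=
    mul_le_mul_of_nonneg_left h1 (Nat.cast_nonneg a)
  have h3 : (a : ℝ) * (n / A) ≤ c / 2 * n := by
    rw [mul_div_assoc', div_le_iff₀ hA0]
    nlinarith
  linarith

/-- **The saving absorbs powers of `L` and of `n`.** -/
theorem area_absorb (a a' : ℕ) (C₀ : ℝ) {c : ℝ} (hc : 0 < c) :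
    ∃ A₀ : ℕ, 1 ≤ A₀ ∧ ∃ n₀ : ℕ, ∀ A : ℕ, A₀ ≤ A → ∀ n w : ℕ, n₀ ≤ n → A * w ≤ n →
      C₀ * ((n : ℝ) + 1) ^ a' * ((2 : ℝ) ^ w) ^ a * Real.exp (-(c * n)) ≤
        Real.exp (-(c / 4 * n)) := by
  obtain ⟨A₀, hA₀⟩ := exists_nat_ge (2 * (a : ℝ) / c)
  obtain ⟨n₀, hn₀⟩ := poly_le_exp a' C₀ (c := c / 4) (by positivity)
  refine ⟨A₀ + 1, by omega, n₀, fun A hA n w hn hw => ?_⟩
  have hA1 : 2 * (a : ℝ) ≤ c * A := by
    have h1 : 2 * (a : ℝ) / c ≤ A := by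
      refine hA₀.trans ?_
      exact_mod_cast (by omega : A₀ ≤ A)
    rw [div_le_iff₀ hc] at h1
    linarith
  have h2 := two_pow_mul_exp_le a (by omega) hA1 hw
  have h3 := hn₀ n hn
  have h4 : 0 ≤ ((2 : ℝ) ^ w) ^ a * Real.exp (-(c * n)) := by positivity
  calc C₀ * ((n : ℝ) + 1) ^ a' * ((2 : ℝ) ^ w) ^ a * Real.exp (-(c * n))
      = (C₀ * ((n : ℝ) + 1) ^ a') * (((2 : ℝ) ^ w) ^ a * Real.exp (-(c * n))) := by ring
    _ ≤ Real.exp (c / 4 * n) * (((2 : ℝ) ^ w) ^ a * Real.exp (-(c * n))) :=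
        mul_le_mul_of_nonneg_right h3 h4
    _ ≤ Real.exp (c / 4 * n) * Real.exp (-(c / 2 * n)) :=
        mul_le_mul_of_nonneg_left h2 (Real.exp_pos _).le
    _ = Real.exp (-(c / 4 * n)) := by
        rw [← Real.exp_add]; congr 1; ring

end Vale.Agent.P315.H608
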